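import Mathlib
import Vale.Agent.P097.H407.Hol

/-!
# Holomorphic parameter integrals and geometric limits

Tools for holomorphic dependence of solutions of complex ODE on initial data and parameters.
-/

open Set Filter Metric Topology

namespace Vale.Agent.P097.H839.Ode

open Vale.Agent.P097.Hol

variable {E F : Type*} [NormedAddCommGroup E] [NormedSpace ℂ E]
  [NormedAddCommGroup F] [NormedSpace ℂ F]

/-- Cauchy estimate for differences. -/
theorem norm_fderiv_sub_le {f g : E → F} {x : E} {r C : ℝ} (hr : 0 < r)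
    (hf : DifferentiableOn ℂ f (ball x r)) (hg : DifferentiableOn ℂ g (ball x r))
    (hC : ∀ y ∈ ball x r, ‖f y - g y‖ ≤ C) :
    ‖fderiv ℂ f x - fderiv ℂ g x‖ ≤ C / r := by
  have h1 : DifferentiableAt ℂ f x := hf.differentiableAt (ball_mem_nhds x hr)
  have h2 : DifferentiableAt ℂ g x := hg.differentiableAt (ball_mem_nhds x hr)
  have h3 := norm_fderiv_le_of_ball hr (hf.sub hg) (C := C) hC
  rwa [show (f - g) = fun y => f y - g y from rfl, fderiv_fun_sub h1 h2] at h3

/-- Holomorphic dependence of integrals over `[0,1]` on parameters. -/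
theorem differentiableOn_intervalIntegral [FiniteDimensional ℂ E] [CompleteSpace F]
    {G : E × ℝ → F} {U : Set E} (hU : IsOpen U)
    (hGc : ContinuousOn G (U ×ˢ Icc (0 : ℝ) 1))
    (hG : ∀ θ ∈ Icc (0 : ℝ) 1, DifferentiableOn ℂ (fun x => G (x, θ)) U) :
    DifferentiableOn ℂ (fun x => ∫ θ in (0 : ℝ)..1, G (x, θ)) U := by
  have : ProperSpace E := FiniteDimensional.proper ℂ E
  intro x₀ hx₀
  apply DifferentiableAt.differentiableWithinAt
  obtain ⟨r, hr, hrU⟩ : ∃ r > 0, closedBall x₀ (2 * r) ⊆ U := by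
    obtain ⟨r, hr, h⟩ := Metric.isOpen_iff.1 hU x₀ hx₀
    exact ⟨r / 4, by positivity, (closedBall_subset_ball (by linarith)).trans h⟩
  have hcomp : IsCompact (closedBall x₀ (2 * r) ×ˢ Icc (0 : ℝ) 1) :=
    (isCompact_closedBall _ _).prod isCompact_Icc
  have hsub : closedBall x₀ (2 * r) ×ˢ Icc (0 : ℝ) 1 ⊆ U ×ˢ Icc (0 : ℝ) 1 :=
    prod_mono hrU le_rfl
  obtain ⟨C, hC⟩ := hcomp.exists_bound_of_continuousOn (hGc.mono hsub)
  have hunif : UniformContinuousOn G (closedBall x₀ (2 * r) ×ˢ Icc (0 : ℝ) 1) :=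
    hcomp.uniformContinuousOn_of_continuous (hGc.mono hsub)
  have hdG : ∀ x ∈ ball x₀ (2 * r), ∀ θ ∈ Icc (0 : ℝ) 1,
      HasFDerivAt (fun x => G (x, θ)) (fderiv ℂ (fun x => G (x, θ)) x) x := by
    intro x hx θ hθ
    exact ((hG θ hθ).differentiableAt
      (hU.mem_nhds (hrU (ball_subset_closedBall hx)))).hasFDerivAt
  have hball : ∀ x ∈ ball x₀ r, ball x r ⊆ ball x₀ (2 * r) := by
    intro x hx y hy
    rw [mem_ball] at hx hy ⊢
    calc dist y x₀ ≤ dist y x + dist x x₀ := dist_triangle _ _ _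
      _ < 2 * r := by linarith
  have hdon : ∀ x ∈ ball x₀ r, ∀ θ ∈ Icc (0 : ℝ) 1,
      DifferentiableOn ℂ (fun x => G (x, θ)) (ball x r) := fun x hx θ hθ =>
    (hG θ hθ).mono ((hball x hx).trans (ball_subset_closedBall.trans hrU))
  have hbound : ∀ x ∈ ball x₀ r, ∀ θ ∈ Icc (0 : ℝ) 1,
      ‖fderiv ℂ (fun x => G (x, θ)) x‖ ≤ C / r := by
    intro x hx θ hθ
    refine norm_fderiv_le_of_ball hr (hdon x hx θ hθ) fun y hy => ?_
    exact hC (y, θ) ⟨ball_subset_closedBall (hball x hx hy), hθ⟩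
  have hcontD : ContinuousOn (fun θ : ℝ => fderiv ℂ (fun x => G (x, θ)) x₀) (Icc (0 : ℝ) 1) := by
    rw [Metric.continuousOn_iff]
    intro θ hθ ε hε
    obtain ⟨δ, hδ, hδf⟩ := Metric.uniformContinuousOn_iff.1 hunif (ε * r / 2) (by positivity)
    refine ⟨δ, hδ, fun θ' hθ' hd => ?_⟩
    have h2 := norm_fderiv_sub_le hr (hdon x₀ (mem_ball_self hr) θ' hθ')
      (hdon x₀ (mem_ball_self hr) θ hθ) (C := ε * r / 2) fun y hy => by
        have hy' : y ∈ closedBall x₀ (2 * r) :=
          ball_subset_closedBall (hball x₀ (mem_ball_self hr) hy)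
        have := hδf (y, θ') ⟨hy', hθ'⟩ (y, θ) ⟨hy', hθ⟩ (by
          rw [Prod.dist_eq, dist_self]
          exact max_lt hδ hd)
        rw [dist_eq_norm] at this
        exact this.le
    rw [dist_eq_norm]
    calc _ ≤ (ε * r / 2) / r := h2
      _ = ε / 2 := by field_simp
      _ < ε := by linarith
  have huI : uIoc (0 : ℝ) 1 ⊆ Icc (0 : ℝ) 1 := by
    rw [uIoc_of_le zero_le_one]; exact Ioc_subset_Icc_self
  have key := intervalIntegral.hasFDerivAt_integral_of_dominated_of_fderiv_le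
    (μ := MeasureTheory.volume) (a := 0) (b := 1)
    (F := fun (x : E) (θ : ℝ) => G (x, θ))
    (F' := fun (x : E) (θ : ℝ) => fderiv ℂ (fun x => G (x, θ)) x)
    (x₀ := x₀) (s := ball x₀ r) (bound := fun _ => C / r) (𝕜 := ℂ)
    (ball_mem_nhds x₀ hr) ?_ ?_ ?_ ?_ ?_ ?_
  · exact key.differentiableAt
  · filter_upwards [ball_mem_nhds x₀ hr] with x hx
    apply ContinuousOn.aestronglyMeasurable _ measurableSet_uIoc
    refine hGc.comp (by fun_prop) fun θ hθ => ?_
    exact ⟨hrU (ball_subset_closedBall (ball_subset_ball (by linarith) hx)), huI hθ⟩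
  · apply ContinuousOn.intervalIntegrable
    rw [uIcc_of_le zero_le_one]
    refine hGc.comp (by fun_prop) fun θ hθ => ⟨hx₀, hθ⟩
  · exact (hcontD.mono huI).aestronglyMeasurable measurableSet_uIoc
  · exact Eventually.of_forall fun θ hθ x hx => hbound x hx θ (huI hθ)
  · exact intervalIntegrable_const
  · exact Eventually.of_forall fun θ hθ x hx =>
      hdG x (ball_subset_ball (by linarith) hx) θ (huI hθ)

/-- Limits with geometric convergence of holomorphic maps are holomorphic. -/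
theorem differentiableOn_of_geometric [CompleteSpace F] {f : ℕ → E → F} {g : E → F} {U : Set E}
    (hU : IsOpen U) {C q : ℝ} (hq : q < 1) (hq0 : 0 ≤ q)
    (hf : ∀ n, DifferentiableOn ℂ (f n) U)
    (hC : ∀ n, ∀ x ∈ U, ‖f (n + 1) x - f n x‖ ≤ C * q ^ n)
    (hg : ∀ x ∈ U, Tendsto (fun n => f n x) atTop (𝓝 (g x))) :
    DifferentiableOn ℂ g U := by
  intro x₀ hx₀
  apply DifferentiableAt.differentiableWithinAt
  obtain ⟨r, hr, hrU⟩ : ∃ r > 0, ball x₀ (2 * r) ⊆ U := by
    obtain ⟨r, hr, h⟩ := Metric.isOpen_iff.1 hU x₀ hx₀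
    exact ⟨r / 4, by positivity, (ball_subset_ball (by linarith)).trans h⟩
  have hball : ∀ x ∈ ball x₀ r, ball x r ⊆ U := by
    intro x hx y hy
    apply hrU
    rw [mem_ball] at hx hy ⊢
    calc dist y x₀ ≤ dist y x + dist x x₀ := dist_triangle _ _ _
      _ < 2 * r := by linarith
  have hsU : ball x₀ r ⊆ U := (ball_subset_ball (by linarith)).trans hrU
  have hu : Summable fun n : ℕ => C * q ^ n / r :=
    ((summable_geometric_of_lt_one hq0 hq).mul_left C).div_const r
  have hsum : ∀ x ∈ U, HasSum (fun n => f (n + 1) x - f n x) (g x - f 0 x) := by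
    intro x hx
    have hs : Summable fun n => f (n + 1) x - f n x :=
      Summable.of_norm_bounded ((summable_geometric_of_lt_one hq0 hq).mul_left C)
        fun n => hC n x hx
    refine (hs.hasSum_iff_tendsto_nat).2 ?_
    have h1 : (fun n => ∑ i ∈ Finset.range n, (f (i + 1) x - f i x)) = fun n => f n x - f 0 x := by
      ext n; exact Finset.sum_range_sub (fun i => f i x) n
    rw [h1]
    exact (hg x hx).sub tendsto_const_nhds
  have key := hasFDerivAt_tsum_of_isPreconnected (𝕜 := ℂ) (u := fun n : ℕ => C * q ^ n / r)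
    (f := fun n x => f (n + 1) x - f n x)
    (f' := fun n x => fderiv ℂ (f (n + 1)) x - fderiv ℂ (f n) x)
    (s := ball x₀ r) (x₀ := x₀) (x := x₀) hu isOpen_ball (convex_ball x₀ r).isPreconnected
    (fun n x hx => by
      have h1 : DifferentiableAt ℂ (f (n + 1)) x := (hf _).differentiableAt (hU.mem_nhds (hsU hx))
      have h2 : DifferentiableAt ℂ (f n) x := (hf _).differentiableAt (hU.mem_nhds (hsU hx))
      exact h1.hasFDerivAt.sub h2.hasFDerivAt)
    (fun n x hx => norm_fderiv_sub_le hr ((hf _).mono (hball x hx)) ((hf _).mono (hball x hx))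
      fun y hy => hC n y (hball x hx hy))
    (mem_ball_self hr) (hsum x₀ hx₀).summable (mem_ball_self hr)
  have h0 : DifferentiableAt ℂ (f 0) x₀ := (hf 0).differentiableAt (hU.mem_nhds hx₀)
  refine (key.differentiableAt.add h0).congr_of_eventuallyEq ?_
  filter_upwards [ball_mem_nhds x₀ hr] with x hx
  simp only [Pi.add_apply]
  rw [(hsum x (hsU hx)).tsum_eq, sub_add_cancel]

/-- Weighted estimate of an integral over `[0,1]`. -/
theorem mul_norm_integral_le {f : ℝ → F} {L c x : ℝ} (hx : 0 ≤ x)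
    (hf : ∀ θ ∈ Icc (0 : ℝ) 1, ‖f θ‖ ≤ L * (c * Real.exp (2 * L * (θ * x)))) :
    x * ‖∫ θ in (0 : ℝ)..1, f θ‖ ≤ c / 2 * (Real.exp (2 * L * x) - 1) := by
  have h1 : ‖∫ θ in (0 : ℝ)..1, f θ‖ ≤
      ∫ θ in (0 : ℝ)..1, L * (c * Real.exp (2 * L * (θ * x))) := by
    apply intervalIntegral.norm_integral_le_of_norm_le zero_le_one
    · exact Eventually.of_forall fun θ hθ => hf θ (Ioc_subset_Icc_self hθ)
    · exact Continuous.intervalIntegrable (by fun_prop) _ _
  have h2 : ∫ θ in (0 : ℝ)..1, x * (L * (c * Real.exp (2 * L * (θ * x)))) =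
      c / 2 * Real.exp (2 * L * (1 * x)) - c / 2 * Real.exp (2 * L * (0 * x)) := by
    apply intervalIntegral.integral_eq_sub_of_hasDerivAt
      (f := fun θ : ℝ => c / 2 * Real.exp (2 * L * (θ * x)))
    · intro θ _
      have h3 : HasDerivAt (fun θ : ℝ => 2 * L * (θ * x)) (2 * L * (1 * x)) θ :=
        ((hasDerivAt_id θ).mul_const x).const_mul (2 * L)
      exact ((h3.exp).const_mul (c / 2)).congr_deriv (by ring)
    · exact Continuous.intervalIntegrable (by fun_prop) _ _
  calc x * ‖∫ θ in (0 : ℝ)..1, f θ‖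
      ≤ x * ∫ θ in (0 : ℝ)..1, L * (c * Real.exp (2 * L * (θ * x))) :=
        mul_le_mul_of_nonneg_left h1 hx
    _ = ∫ θ in (0 : ℝ)..1, x * (L * (c * Real.exp (2 * L * (θ * x)))) := by
        exact (intervalIntegral.integral_const_mul x
          (fun θ : ℝ => L * (c * Real.exp (2 * L * (θ * x))))).symm
    _ = c / 2 * (Real.exp (2 * L * x) - 1) := by
        rw [h2]; simp; ring

end Vale.Agent.P097.H839.Ode
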