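import Mathlib

/-!
# Superharmonic functions in a weak sense: minimum principle

`Loc R z`: `R z` dominates the centre value of `Re GG` whenever `Re GG < R` on a small circle
round `z`, for every holomorphic `GG`.
-/

open Set Filter Metric Topology

namespace Vale.Agent.P097.H839.Cone

/-- weak superharmonicity at a point -/
def Loc (R : ℂ → ℝ) (z : ℂ) : Prop :=
  ∃ r₀ > 0, ∀ r, 0 < r → r < r₀ → ∀ (GG : ℂ → ℂ) (V : Set ℂ), IsOpen V → closedBall z r ⊆ V →
    DifferentiableOn ℂ GG V → (∀ w ∈ sphere z r, (GG w).re < R w) → (GG z).re ≤ R z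

theorem Loc.sub {R : ℂ → ℝ} {z : ℂ} (h : Loc R z) {Φ : ℂ → ℂ} {U : Set ℂ} (hU : IsOpen U)
    (hz : z ∈ U) (hΦ : DifferentiableOn ℂ Φ U) : Loc (fun w => R w - (Φ w).re) z := by
  obtain ⟨r₀, hr₀, h1⟩ := h
  obtain ⟨r₁, hr₁, h2⟩ := Metric.isOpen_iff.1 hU z hz
  refine ⟨min r₀ r₁, lt_min hr₀ hr₁, fun r hr hlt GG V hV hcV hd hs => ?_⟩
  have hrU : closedBall z r ⊆ U :=
    (closedBall_subset_ball (hlt.trans_le (min_le_right _ _))).trans h2
  have := h1 r hr (hlt.trans_le (min_le_left _ _)) (fun w => GG w + Φ w) (V ∩ U) (hV.inter hU)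
    (subset_inter hcV hrU) ((hd.mono inter_subset_left).add (hΦ.mono inter_subset_right))
    (fun w hw => by
      have := hs w hw
      simp only [Complex.add_re]
      linarith)
  simp only [Complex.add_re] at this
  linarith

theorem Loc.congr {R R' : ℂ → ℝ} {z : ℂ} (h : Loc R z) (hE : R =ᶠ[𝓝 z] R') : Loc R' z := by
  obtain ⟨r₀, hr₀, h1⟩ := h
  obtain ⟨r₁, hr₁, h2⟩ := Metric.eventually_nhds_iff.1 hE
  refine ⟨min r₀ r₁, lt_min hr₀ hr₁, fun r hr hlt GG V hV hcV hd hs => ?_⟩
  have h3 := h1 r hr (hlt.trans_le (min_le_left _ _)) GG V hV hcV hd fun w hw => by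
    rw [h2 (by rw [mem_sphere.1 hw]; exact hlt.trans_le (min_le_right _ _))]
    exact hs w hw
  rwa [h2 (by rw [dist_self]; exact hr₁)] at h3

theorem Loc.comp_add {R : ℂ → ℝ} {z a : ℂ} (h : Loc R (z + a)) :
    Loc (fun w => R (w + a)) z := by
  obtain ⟨r₀, hr₀, h1⟩ := h
  refine ⟨r₀, hr₀, fun r hr hlt GG V hV hcV hd hs => ?_⟩
  have h3 := h1 r hr hlt (fun w => GG (w - a)) ((fun w => w - a) ⁻¹' V)
    (hV.preimage (by fun_prop)) (fun w hw => hcV (by
      rw [mem_closedBall, dist_eq_norm] at hw ⊢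
      rwa [show w - a - z = w - (z + a) by ring]))
    (hd.comp (by fun_prop) fun w hw => hw) fun w hw => by
      have := hs (w - a) (by
        rw [mem_sphere, dist_eq_norm] at hw ⊢
        rwa [show w - a - z = w - (z + a) by ring])
      simpa only [sub_add_cancel] using this
  simpa using h3

/-- harmonic functions -/
theorem loc_re {Φ : ℂ → ℂ} {U : Set ℂ} (hU : IsOpen U) {z : ℂ} (hz : z ∈ U)
    (hΦ : DifferentiableOn ℂ Φ U) : Loc (fun w => (Φ w).re) z := by
  have h0 : Loc (fun _ => (0 : ℝ)) z := by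
    refine ⟨1, one_pos, fun r hr _ GG V hV hcV hd hs => ?_⟩
    -- maximum principle for `exp GG`
    have hd' : DiffContOnCl ℂ (fun w => Complex.exp (GG w)) (ball z r) := by
      refine DifferentiableOn.diffContOnCl ?_
      rw [closure_ball z hr.ne']
      exact (hd.mono hcV).cexp
    have h1 := Complex.norm_le_of_forall_mem_frontier_norm_le (C := 1) isBounded_ball hd' (by
      intro w hw
      rw [frontier_ball z hr.ne'] at hw
      rw [Complex.norm_exp]
      exact Real.exp_le_one_iff.2 (hs w hw).le) (subset_closure (mem_ball_self hr))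
    rw [Complex.norm_exp, Real.exp_le_one_iff] at h1
    exact h1
  have := h0.sub hU hz hΦ.neg
  simpa using this

/-- minimum principle -/
theorem min_principle {R : ℂ → ℝ} {U : Set ℂ} (hU : IsOpen U) (hb : Bornology.IsBounded U)
    (hlsc : LowerSemicontinuousOn R U) (hloc : ∀ z ∈ U, Loc R z)
    (hfr : ∀ ζ ∈ frontier U, ∀ δ > 0, ∀ᶠ z in 𝓝[U] ζ, -δ ≤ R z) : ∀ z ∈ U, 0 ≤ R z := by
  intro z₀ hz₀
  by_contra hneg
  push Not at hneg
  obtain ⟨M, hM0, hM⟩ := hb.exists_pos_norm_le
  set ε : ℝ := -R z₀ / 4 / M ^ 2 with hε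
  have hε0 : 0 < ε := by
    rw [hε]; apply div_pos (by linarith) (by positivity)
  have hεM : ε * M ^ 2 = -R z₀ / 4 := by rw [hε]; field_simp
  set f : ℂ → ℝ := fun z => R z - ε * ‖z‖ ^ 2 with hf
  have hf0 : f z₀ ≤ R z₀ := by
    simp only [hf]
    nlinarith [sq_nonneg ‖z₀‖]
  have hflsc : LowerSemicontinuousOn f U := by
    have : Continuous fun z : ℂ => -(ε * ‖z‖ ^ 2) := by fun_prop
    have h2 := hlsc.add (this.lowerSemicontinuous.lowerSemicontinuousOn U)
    simpa only [hf, sub_eq_add_neg] using h2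
  set S : Set ℂ := {z | z ∈ U ∧ f z ≤ f z₀} with hS
  have hSb : Bornology.IsBounded S := hb.subset fun z hz => hz.1
  have hScl : IsClosed S := by
    refine isClosed_of_closure_subset fun z hz => ?_
    have hzU : z ∈ closure U := closure_mono (fun w hw => hw.1) hz
    have hfreq : ∃ᶠ w in 𝓝 z, w ∈ S := mem_closure_iff_frequently.1 hz
    by_cases hzi : z ∈ U
    · refine ⟨hzi, ?_⟩
      by_contra hlt
      push Not at hlt
      have h1 := hflsc z hzi (f z₀) hlt
      rw [hU.nhdsWithin_eq hzi] at h1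
      obtain ⟨w, hw, hw'⟩ := (hfreq.and_eventually h1).exists
      exact absurd hw.2 (not_le.2 hw')
    · have hzf : z ∈ frontier U := by
        rw [frontier, hU.interior_eq]; exact ⟨hzU, hzi⟩
      have h1 := hfr z hzf (-R z₀ / 4) (by linarith)
      rw [eventually_nhdsWithin_iff] at h1
      obtain ⟨w, hw, hw'⟩ := (hfreq.and_eventually h1).exists
      have h2 := hw' hw.1
      have h3 : ‖w‖ ^ 2 ≤ M ^ 2 := by
        have := hM w hw.1
        nlinarith [norm_nonneg w]
      have h4 : f w ≤ R z₀ := hw.2.trans hf0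
      simp only [hf] at h4
      nlinarith
  have hSc : IsCompact S := Metric.isCompact_of_isClosed_isBounded hScl hSb
  obtain ⟨z, hzS, hmin⟩ := LowerSemicontinuousOn.exists_isMinOn
    (show S.Nonempty from ⟨z₀, hz₀, le_refl _⟩) hSc (hflsc.mono fun z hz => hz.1)
  have hmin' : ∀ w ∈ U, f z ≤ f w := by
    intro w hw
    by_cases h : f w ≤ f z₀
    · exact hmin ⟨hw, h⟩
    · push Not at h
      exact hzS.2.trans h.le
  obtain ⟨r₀, hr₀, hl⟩ := hloc z hzS.1
  obtain ⟨r₁, hr₁, hrU⟩ := Metric.isOpen_iff.1 hU z hzS.1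
  set r : ℝ := min r₀ r₁ / 2 with hr
  have hmm : 0 < min r₀ r₁ := lt_min hr₀ hr₁
  have hr0 : 0 < r := by positivity
  have h1 := hl r hr0 (by
      have := min_le_left r₀ r₁
      rw [hr]; linarith)
    (fun w => ((f z + ε * ‖z‖ ^ 2 + ε * r ^ 2 / 2 : ℝ) : ℂ) +
      ((2 * ε : ℝ) : ℂ) * ((starRingEnd ℂ) z * (w - z))) univ isOpen_univ (subset_univ _)
    (by fun_prop) (fun w hw => by
      have hwU : w ∈ U := hrU (by
        rw [mem_sphere] at hw
        rw [mem_ball, hw]
        have := min_le_right r₀ r₁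
        rw [hr]; linarith)
      have h2 := hmin' w hwU
      simp only [hf] at h2
      have h3 : ‖w‖ ^ 2 = ‖z‖ ^ 2 + 2 * ((starRingEnd ℂ) z * (w - z)).re + r ^ 2 := by
        rw [mem_sphere, dist_eq_norm] at hw
        rw [← hw]
        simp only [Complex.sq_norm, Complex.normSq_apply, Complex.mul_re, Complex.conj_re,
          Complex.conj_im, Complex.sub_re, Complex.sub_im]
        ring
      have h4 : ((((f z + ε * ‖z‖ ^ 2 + ε * r ^ 2 / 2 : ℝ) : ℂ) +
          ((2 * ε : ℝ) : ℂ) * ((starRingEnd ℂ) z * (w - z)))).re =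
          f z + ε * ‖z‖ ^ 2 + ε * r ^ 2 / 2 + 2 * ε * ((starRingEnd ℂ) z * (w - z)).re := by
        rw [Complex.add_re, Complex.ofReal_re, Complex.re_ofReal_mul]
      rw [h4]
      simp only [hf]
      rw [h3] at h2
      have : 0 < ε * r ^ 2 := by positivity
      nlinarith)
  have h5 : ((((f z + ε * ‖z‖ ^ 2 + ε * r ^ 2 / 2 : ℝ) : ℂ) +
      ((2 * ε : ℝ) : ℂ) * ((starRingEnd ℂ) z * (z - z)))).re = f z + ε * ‖z‖ ^ 2 + ε * r ^ 2 / 2 := by
    rw [sub_self, mul_zero, mul_zero, add_zero, Complex.ofReal_re]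
  rw [h5] at h1
  simp only [hf] at h1
  have : 0 < ε * r ^ 2 := by positivity
  linarith

/-- a lower bound off the real points of a circle gives a lower bound at its real centre -/
theorem real_centre {R : ℂ → ℝ} {x : ℝ} {ρ m B : ℝ} (hρ : 0 < ρ)
    (hsh : ∀ (GG : ℂ → ℂ) (V : Set ℂ), IsOpen V → closedBall (x : ℂ) ρ ⊆ V →
      DifferentiableOn ℂ GG V → (∀ w ∈ sphere (x : ℂ) ρ, (GG w).re < R w) → (GG x).re ≤ R x)
    (hB : ∀ w ∈ sphere (x : ℂ) ρ, -B ≤ R w)
    (hm : ∀ w ∈ sphere (x : ℂ) ρ, w.im ≠ 0 → m ≤ R w) : m ≤ R x := by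
  refine le_of_forall_pos_le_add fun lam hlam => ?_
  set Q : ℝ := max ((m + B) / lam) 0 with hQ
  have hQ0 : 0 ≤ Q := le_max_right _ _
  have hQ1 : m + B ≤ lam * Q := by
    have := le_max_left ((m + B) / lam) 0
    rwa [← hQ, div_le_iff₀' hlam] at this
  set a : ℝ := (Q + 1) / (Q + 3) with ha
  have ha0 : 0 < a := by positivity
  have ha1 : a < 1 := by rw [ha, div_lt_one (by positivity)]; linarith
  set GG : ℂ → ℂ := fun w => (m : ℂ) - (lam : ℂ) * ((1 + (a : ℂ) * ((w - x) / ρ) ^ 2) /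
    (1 - (a : ℂ) * ((w - x) / ρ) ^ 2)) with hGG
  set V : Set ℂ := {w | 1 - (a : ℂ) * ((w - x) / ρ) ^ 2 ≠ 0} with hV
  have hVo : IsOpen V := isOpen_ne_fun (by fun_prop) continuous_const
  have hne : ∀ w ∈ closedBall (x : ℂ) ρ, 1 - (a : ℂ) * ((w - x) / ρ) ^ 2 ≠ 0 := by
    intro w hw h0
    have h1 : ‖(a : ℂ) * ((w - x) / ρ) ^ 2‖ = 1 := by
      rw [← sub_eq_zero.1 h0, norm_one]
    rw [mem_closedBall, dist_eq_norm] at hw
    rw [norm_mul, norm_pow, norm_div, Complex.norm_real, Complex.norm_real, Real.norm_of_nonneg ha0.le,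
      Real.norm_of_nonneg hρ.le] at h1
    have h2 : ‖w - x‖ / ρ ≤ 1 := (div_le_one hρ).2 hw
    have h3 : (‖w - x‖ / ρ) ^ 2 ≤ 1 := pow_le_one₀ (by positivity) h2
    nlinarith
  have h1 := hsh GG V hVo hne (by
    refine DifferentiableOn.sub (by fun_prop) (DifferentiableOn.mul (by fun_prop) ?_)
    exact DifferentiableOn.div (by fun_prop) (by fun_prop) fun w hw => hw) (by
    intro w hw
    have hu : Complex.normSq (((w - x) / ρ) ^ 2) = 1 := by
      rw [mem_sphere, dist_eq_norm] at hw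
      rw [← Complex.sq_norm, norm_pow, norm_div, hw, Complex.norm_real, Real.norm_of_nonneg hρ.le,
        div_self hρ.ne']
      norm_num
    set u : ℂ := ((w - x) / ρ) ^ 2 with hudef
    have hne' : 0 < Complex.normSq (1 - (a : ℂ) * u) :=
      Complex.normSq_pos.2 (hne w (sphere_subset_closedBall hw))
    have hre : ((1 + (a : ℂ) * u) / (1 - (a : ℂ) * u)).re =
        (1 - a ^ 2) / Complex.normSq (1 - (a : ℂ) * u) := by
      rw [Complex.div_re, ← add_div]
      congr 1
      simp only [Complex.add_re, Complex.one_re, Complex.re_ofReal_mul, Complex.sub_re,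
        Complex.add_im, Complex.one_im, Complex.im_ofReal_mul, Complex.sub_im]
      rw [Complex.normSq_apply] at hu
      nlinarith [hu]
    have hGw : (GG w).re = m - lam * ((1 - a ^ 2) / Complex.normSq (1 - (a : ℂ) * u)) := by
      rw [← hre]
      simp only [hGG, Complex.sub_re, Complex.ofReal_re, Complex.re_ofReal_mul]
      rfl
    rw [hGw]
    by_cases him : w.im = 0
    · -- the real points
      have hu1 : u = 1 := by
        have hwx : w = (w.re : ℂ) := Complex.ext (by simp) (by simp [him])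
        have hz : ((w - x) / ρ) = (((w.re - x) / ρ : ℝ) : ℂ) := by
          rw [hwx]; push_cast; simp
        rw [hudef, hz] at hu ⊢
        rw [← Complex.ofReal_pow, Complex.normSq_ofReal] at hu
        rw [← Complex.ofReal_pow]
        have h4 : 0 ≤ ((w.re - x) / ρ) ^ 2 := sq_nonneg _
        have h5 : ((w.re - x) / ρ) ^ 2 = 1 := by nlinarith
        rw [h5]; simp
      have h6 : Complex.normSq (1 - (a : ℂ) * u) = (1 - a) ^ 2 := by
        rw [hu1, mul_one, ← Complex.ofReal_one, ← Complex.ofReal_sub, Complex.normSq_ofReal]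
        ring
      rw [h6]
      have h7 : (1 - a ^ 2) / (1 - a) ^ 2 = (1 + a) / (1 - a) := by
        have : (1 - a) ≠ 0 := by linarith
        field_simp
        ring
      have h8 : (1 + a) / (1 - a) = Q + 2 := by
        rw [ha]
        have h9 : Q + 3 ≠ 0 := by positivity
        field_simp
        ring
      rw [h7, h8]
      have := hB w hw
      nlinarith
    · have h9 : 0 < (1 - a ^ 2) / Complex.normSq (1 - (a : ℂ) * u) := by
        apply div_pos _ hne'
        nlinarith
      have := hm w hw him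
      nlinarith)
  have h2 : (GG x).re = m - lam := by
    simp only [hGG, sub_self, zero_div]
    simp
  rw [h2] at h1
  linarith

end Vale.Agent.P097.H839.Cone
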