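import Mathlib
import Vale.Agent.P097.H839.ConeA
import Vale.Agent.P097.H877.Bd.Priv
import Vale.Agent.P097.H877.Bd.Fat3

/-!
# From a harmonic minorant to boundary derivatives almost everywhere

`Minor R Φ c0 ρ C`: `Re Φ` is a harmonic minorant of `R` on the upper half disc whose vertical
derivative is bounded above and whose lower boundary values are at least those of `R`.
-/

open Set Filter Metric Topology

namespace Vale.Agent.P097.H839.Cone

open Vale.Agent.P097.H877.Bd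

/-- upper half disc with real centre -/
def Up (c0 ρ : ℝ) : Set ℂ := {z | ‖z - c0‖ < ρ ∧ 0 < z.im}

theorem isOpen_Up (c0 ρ : ℝ) : IsOpen (Up c0 ρ) := by
  have h1 : IsOpen {z : ℂ | ‖z - c0‖ < ρ} := isOpen_lt (by fun_prop) (by fun_prop)
  have h2 : IsOpen {z : ℂ | 0 < z.im} := isOpen_lt (by fun_prop) (by fun_prop)
  exact h1.inter h2

structure Minor (R : ℂ → ℝ) (Φ : ℂ → ℂ) (c0 ρ C : ℝ) : Prop where
  hd : DifferentiableOn ℂ Φ (Up c0 ρ)
  le : ∀ z ∈ Up c0 ρ, (Φ z).re ≤ R z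
  hy : ∀ z ∈ Up c0 ρ, -C ≤ (deriv Φ z).im
  bd : ∀ x : ℝ, |x - c0| < ρ → ∀ m < R x, ∀ᶠ z in 𝓝[{z : ℂ | 0 < z.im}] (x : ℂ), m < (Φ z).re

theorem norm_sub_real_le {z : ℂ} {x : ℝ} : ‖z - x‖ ≤ |z.re - x| + |z.im| := by
  have := Complex.norm_le_abs_re_add_abs_im (z - x)
  simpa using this

theorem cone_norm {k h x : ℝ} (hk : 0 < k) {z : ℂ} (hz : z ∈ cone k h x) :
    ‖z - x‖ ≤ (k + 1) * z.im := by
  have h1 := cone_im_pos hk hz
  have h2 := norm_sub_real_le (z := z) (x := x)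
  rw [abs_of_pos h1] at h2
  have := hz.1
  linarith

theorem cone_sub_Up {k c0 ρ x : ℝ} (hk : 0 < k) (_hx : |x - c0| < ρ) :
    cone k ((ρ - |x - c0|) / (k + 1)) x ⊆ Up c0 ρ := by
  intro z hz
  have h1 := cone_im_pos hk hz
  refine ⟨?_, h1⟩
  have h2 := cone_norm hk hz
  have h3 := hz.2
  rw [lt_div_iff₀ (by positivity)] at h3
  have h4 : ‖z - c0‖ ≤ ‖z - x‖ + |x - c0| := by
    have h5 : z - c0 = (z - x) + ((x - c0 : ℝ) : ℂ) := by push_cast; ring
    rw [h5]
    refine (norm_add_le _ _).trans ?_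
    rw [Complex.norm_real, Real.norm_eq_abs]
  nlinarith

variable {R : ℂ → ℝ} {Φ : ℂ → ℂ} {c0 ρ C : ℝ}

theorem Minor.ae_deriv (M : Minor R Φ c0 ρ C) : ∀ᵐ x : ℝ, |x - c0| < ρ → ∃ A : ℂ, ∀ k > 0, ∃ h > 0,
    cone k h x ⊆ Up c0 ρ ∧ Tendsto (deriv Φ) (𝓝[cone k h x] (x : ℂ)) (𝓝 A) := by
  have hUo := isOpen_Up c0 ρ
  set G : ℂ → ℂ := fun z => ((C : ℂ) + 1 - Complex.I * deriv Φ z)⁻¹ with hG
  have hre : ∀ z ∈ Up c0 ρ, 1 ≤ ((C : ℂ) + 1 - Complex.I * deriv Φ z).re := by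
    intro z hz
    have := M.hy z hz
    simp
    linarith
  have hne : ∀ z ∈ Up c0 ρ, (C : ℂ) + 1 - Complex.I * deriv Φ z ≠ 0 := by
    intro z hz h0
    have := hre z hz
    rw [h0] at this
    norm_num at this
  have hGd : DifferentiableOn ℂ G (Up c0 ρ) :=
    DifferentiableOn.inv (DifferentiableOn.const_sub ((M.hd.deriv hUo).const_mul _) _) hne
  have hGb : ∀ z ∈ Up c0 ρ, ‖G z‖ ≤ 1 := by
    intro z hz
    simp only [hG]
    rw [norm_inv]
    exact inv_le_one_of_one_le₀ ((hre z hz).trans (Complex.re_le_norm _))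
  have hG0 : ∀ z ∈ Up c0 ρ, G z ≠ 0 := fun z hz => inv_ne_zero (hne z hz)
  have hf := fatloc hGd (E := {x | |x - c0| < ρ}) (fun x hx => by
    have hx' : |x - c0| < ρ := hx
    refine ⟨1, one_pos, (ρ - |x - c0|) / (1 + 1), div_pos (by linarith) (by norm_num), 1,
      cone_sub_Up one_pos hx', fun z hz => hGb z (cone_sub_Up one_pos hx' hz)⟩)
  have hp := privalov hGd (E := {x | |x - c0| < ρ ∧ ∃ k > 0, ∃ h > 0, cone k h x ⊆ Up c0 ρ ∧
    Tendsto G (𝓝[cone k h x] (x : ℂ)) (𝓝 0)}) (fun x hx => hx.2)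
  filter_upwards [hf, hp] with x h1 h2 hx
  obtain ⟨L, hL⟩ := h1 hx
  have hL0 : L ≠ 0 := by
    rintro rfl
    obtain ⟨k, hk, h, hh, hc, hz⟩ := h2 ⟨hx, by
      obtain ⟨h', hh', hc', ht'⟩ := hL 1 one_pos
      exact ⟨1, one_pos, h', hh', hc', ht'⟩⟩
    have hm : (x : ℂ) + ((h / 2 : ℝ) : ℂ) * Complex.I ∈ cone k h x := by
      refine ⟨?_, ?_⟩
      · simp
        positivity
      · simp
        linarith
    exact hG0 _ (hc hm) (hz _ hm)
  refine ⟨Complex.I * (L⁻¹ - (C + 1)), fun k hk => ?_⟩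
  obtain ⟨h, hh, hc, ht⟩ := hL k hk
  refine ⟨h, hh, hc, ?_⟩
  have h3 : Tendsto (fun z => Complex.I * ((G z)⁻¹ - (C + 1))) (𝓝[cone k h x] (x : ℂ))
      (𝓝 (Complex.I * (L⁻¹ - (C + 1)))) := ((ht.inv₀ hL0).sub_const _).const_mul _
  refine h3.congr' ?_
  filter_upwards with z
  simp only [hG, inv_inv]
  ring_nf
  simp

/-- the Lipschitz estimate in cones -/
theorem Minor.lip (M : Minor R Φ c0 ρ C) {x : ℝ} {A : ℂ} (hA : ∀ k > 0, ∃ h > 0,
    cone k h x ⊆ Up c0 ρ ∧ Tendsto (deriv Φ) (𝓝[cone k h x] (x : ℂ)) (𝓝 A)) {k ε : ℝ} (hk : 0 < k)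
    (hε : 0 < ε) : ∃ h > 0, cone k h x ⊆ Up c0 ρ ∧
      ∀ z ∈ cone k h x, ∀ w ∈ cone k h x, ‖(Φ z - A * z) - (Φ w - A * w)‖ ≤ ε * ‖z - w‖ := by
  obtain ⟨h, hh, hc, ht⟩ := hA k hk
  have h1 : ∀ᶠ z in 𝓝[cone k h x] (x : ℂ), ‖deriv Φ z - A‖ < ε := by
    have := Metric.tendsto_nhds.1 ht ε hε
    simpa only [dist_eq_norm] using this
  rw [eventually_nhdsWithin_iff, Metric.eventually_nhds_iff] at h1
  obtain ⟨δ, hδ, h2⟩ := h1
  have hsub : cone k (min h (δ / (k + 1))) x ⊆ cone k h x := cone_mono hk le_rfl (min_le_left _ _)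
  refine ⟨min h (δ / (k + 1)), lt_min hh (by positivity), hsub.trans hc, ?_⟩
  have h3 : ∀ z ∈ cone k (min h (δ / (k + 1))) x, ‖deriv Φ z - A‖ ≤ ε := by
    intro z hz
    refine (h2 ?_ (hsub hz)).le
    rw [dist_eq_norm]
    have h4 := cone_norm hk hz
    have h5 : z.im < δ / (k + 1) := hz.2.trans_le (min_le_right _ _)
    rw [lt_div_iff₀ (by positivity)] at h5
    linarith
  intro z hz w hw
  refine (convex_cone k (min h (δ / (k + 1))) x).norm_image_sub_le_of_norm_hasDerivWithin_le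
    (f := fun z => Φ z - A * z) (f' := fun z => deriv Φ z - A) ?_ h3 hw hz
  intro y hy
  have h6 : HasDerivAt Φ (deriv Φ y) y :=
    (M.hd.differentiableAt ((isOpen_Up c0 ρ).mem_nhds (hc (hsub hy)))).hasDerivAt
  have h7 : HasDerivAt (fun z => A * z) A y := by simpa using (hasDerivAt_id y).const_mul A
  exact (h6.sub h7).hasDerivWithinAt

/-- boundary value and first order expansion in cones -/
theorem Minor.exp (M : Minor R Φ c0 ρ C) {x : ℝ} {A : ℂ} (hA : ∀ k > 0, ∃ h > 0,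
    cone k h x ⊆ Up c0 ρ ∧ Tendsto (deriv Φ) (𝓝[cone k h x] (x : ℂ)) (𝓝 A)) :
    ∃ l : ℂ, Tendsto (fun τ : ℝ => Φ (x + (τ : ℂ) * Complex.I)) (𝓝[>] 0) (𝓝 l) ∧
      ∀ k > 0, ∀ ε > 0, ∃ h > 0, cone k h x ⊆ Up c0 ρ ∧
        ∀ z ∈ cone k h x, ‖Φ z - l - A * (z - x)‖ ≤ ε * ‖z - x‖ := by
  obtain ⟨h1, hh1, hc1, hl1⟩ := M.lip hA one_pos one_pos
  obtain ⟨b, hb⟩ := exists_bdry (k := 1) (h := h1) (M := 1) one_pos hh1 zero_le_one (K := {x})
    (F := fun z => Φ z - A * z) (by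
      intro y hy z hz w hw
      rw [mem_singleton_iff] at hy
      subst hy
      exact hl1 z hz w hw)
  have hb' : ∀ z ∈ cone 1 h1 x, ‖Φ z - A * z - b x‖ ≤ 1 * ‖z - x‖ := hb x rfl
  have hver : ∀ k : ℝ, 0 < k → ∀ h : ℝ, 0 < h → ∀ᶠ τ : ℝ in 𝓝[>] 0,
      (x : ℂ) + (τ : ℂ) * Complex.I ∈ cone k h x := by
    intro k hk h hh
    filter_upwards [Ioo_mem_nhdsGT hh] with τ hτ
    refine ⟨?_, ?_⟩
    · have : 0 < k * τ := mul_pos hk hτ.1
      simpa using this
    · simpa using hτ.2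
  have hlin : Tendsto (fun τ : ℝ => (x : ℂ) + (τ : ℂ) * Complex.I) (𝓝[>] 0) (𝓝 (x : ℂ)) := by
    have h0 : Continuous fun τ : ℝ => (x : ℂ) + (τ : ℂ) * Complex.I := by fun_prop
    have := h0.tendsto 0
    simp only [Complex.ofReal_zero, zero_mul, add_zero] at this
    exact this.mono_left nhdsWithin_le_nhds
  have hlim : Tendsto (fun τ : ℝ => Φ (x + (τ : ℂ) * Complex.I)) (𝓝[>] 0) (𝓝 (b x + A * x)) := by
    have h2 : Tendsto (fun τ : ℝ => Φ (x + (τ : ℂ) * Complex.I) -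
        A * (x + (τ : ℂ) * Complex.I) - b x) (𝓝[>] 0) (𝓝 0) := by
      rw [tendsto_zero_iff_norm_tendsto_zero]
      refine squeeze_zero' (Eventually.of_forall fun _ => norm_nonneg _)
        ((hver 1 one_pos h1 hh1).mono fun τ hτ => hb' _ hτ) ?_
      have := (hlin.sub_const (x : ℂ)).norm.const_mul 1
      simpa using this
    have h3 := (h2.add_const (b x)).add (hlin.const_mul A)
    simp only [zero_add] at h3
    refine h3.congr fun τ => ?_
    ring
  refine ⟨b x + A * x, hlim, fun k hk ε hε => ?_⟩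
  obtain ⟨h, hh, hc, hl⟩ := M.lip hA hk hε
  refine ⟨h, hh, hc, fun z hz => ?_⟩
  have h4 : Tendsto (fun τ : ℝ => ‖(Φ z - A * z) - (Φ (x + (τ : ℂ) * Complex.I) -
      A * (x + (τ : ℂ) * Complex.I))‖) (𝓝[>] 0) (𝓝 ‖(Φ z - A * z) - ((b x + A * x) - A * x)‖) :=
    (tendsto_const_nhds.sub (hlim.sub (hlin.const_mul A))).norm
  have h5 : Tendsto (fun τ : ℝ => ε * ‖z - (x + (τ : ℂ) * Complex.I)‖) (𝓝[>] 0)
      (𝓝 (ε * ‖z - x‖)) := ((tendsto_const_nhds.sub hlin).norm).const_mul ε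
  have h6 := le_of_tendsto_of_tendsto h4 h5 ((hver k hk h hh).mono fun τ hτ => hl z hz _ hτ)
  rwa [show Φ z - (b x + A * x) - A * (z - x) = (Φ z - A * z) - ((b x + A * x) - A * x) by ring]

/-- the vertical derivative bound -/
theorem Minor.vert (M : Minor R Φ c0 ρ C) {z : ℂ} {τ : ℝ} (hτ : 0 ≤ τ)
    (hz : ∀ σ ∈ Icc (0 : ℝ) τ, z + (σ : ℂ) * Complex.I ∈ Up c0 ρ) :
    (Φ (z + (τ : ℂ) * Complex.I)).re - C * τ ≤ (Φ z).re := by
  have hd : ∀ σ ∈ Icc (0 : ℝ) τ, HasDerivAt (fun σ : ℝ => (Φ (z + (σ : ℂ) * Complex.I)).re)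
      (-(deriv Φ (z + (σ : ℂ) * Complex.I)).im) σ := by
    intro σ hσ
    have h1 : HasDerivAt (fun σ : ℝ => z + (σ : ℂ) * Complex.I) (1 * Complex.I) σ :=
      ((Complex.ofRealCLM.hasDerivAt (x := σ)).mul_const Complex.I).const_add z
    have h2 : HasDerivAt Φ (deriv Φ (z + (σ : ℂ) * Complex.I)) (z + (σ : ℂ) * Complex.I) :=
      (M.hd.differentiableAt ((isOpen_Up c0 ρ).mem_nhds (hz σ hσ))).hasDerivAt
    have h3 : HasDerivAt (fun σ : ℝ => Φ (z + (σ : ℂ) * Complex.I))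
        (deriv Φ (z + (σ : ℂ) * Complex.I) * (1 * Complex.I)) σ := h2.comp σ h1
    have h4 := Complex.reCLM.hasFDerivAt.comp_hasDerivAt σ h3
    refine h4.congr_deriv ?_
    simp
  have h1 := (convex_Icc (0 : ℝ) τ).image_sub_le_mul_sub_of_deriv_le (C := C)
    (f := fun σ : ℝ => (Φ (z + (σ : ℂ) * Complex.I)).re)
    (fun σ hσ => (hd σ hσ).continuousAt.continuousWithinAt)
    (fun σ hσ => (hd σ (interior_subset hσ)).differentiableAt.differentiableWithinAt)
    (fun σ hσ => by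
      rw [(hd σ (interior_subset hσ)).deriv]
      have := M.hy _ (hz σ (interior_subset hσ))
      linarith) 0 (left_mem_Icc.2 hτ) τ (right_mem_Icc.2 hτ) hτ
  simp only [Complex.ofReal_zero, zero_mul, add_zero, sub_zero] at h1
  linarith

/-- lower expansion in the full upper half disc -/
theorem Minor.full (M : Minor R Φ c0 ρ C) {x : ℝ} (hx : |x - c0| < ρ) {A l : ℂ}
    (hexp : ∀ k > 0, ∀ ε > 0, ∃ h > 0, cone k h x ⊆ Up c0 ρ ∧
        ∀ z ∈ cone k h x, ‖Φ z - l - A * (z - x)‖ ≤ ε * ‖z - x‖) {ε : ℝ} (hε : 0 < ε) :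
    ∃ δ > 0, ∀ z : ℂ, 0 < z.im → ‖z - x‖ < δ → z ∈ Up c0 ρ ∧
      l.re + (A * (z - x)).re - ε * ‖z - x‖ ≤ (Φ z).re := by
  set N : ℝ := ‖A‖ + |C| + 1 with hN
  have hN0 : 0 < N := by positivity
  set ε₁ : ℝ := min (ε / 2) 1 with hε₁
  have hε₁0 : 0 < ε₁ := lt_min (by positivity) one_pos
  set k : ℝ := 4 * N / ε + 1 with hk
  have hk1 : 1 ≤ k := by
    have : 0 ≤ 4 * N / ε := by positivity
    linarith
  have hk0 : 0 < k := by linarith
  have hkε : 2 * N / k ≤ ε / 2 := by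
    rw [div_le_iff₀ hk0, hk]
    have : ε / 2 * (4 * N / ε + 1) = 2 * N + ε / 2 := by field_simp; ring
    rw [this]; linarith
  obtain ⟨h, hh, hc, hl⟩ := hexp k hk0 ε₁ hε₁0
  have hg : 0 < ρ - |x - c0| := by linarith
  refine ⟨min (h / 3) ((ρ - |x - c0|) / 3), lt_min (by positivity) (by positivity), ?_⟩
  intro z hzi hz
  have hz1 : ‖z - x‖ < h / 3 := hz.trans_le (min_le_left _ _)
  have hz2 : ‖z - x‖ < (ρ - |x - c0|) / 3 := hz.trans_le (min_le_right _ _)
  have hre : |z.re - x| ≤ ‖z - x‖ := by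
    have := Complex.abs_re_le_norm (z - x); simpa using this
  have him : z.im ≤ ‖z - x‖ := by
    have := Complex.abs_im_le_norm (z - x)
    simp only [Complex.sub_im, Complex.ofReal_im, sub_zero] at this
    exact (le_abs_self _).trans this
  have hup : ∀ σ : ℝ, 0 ≤ σ → σ ≤ 2 * ‖z - x‖ → z + (σ : ℂ) * Complex.I ∈ Up c0 ρ := by
    intro σ hσ0 hσ
    refine ⟨?_, by simp; linarith⟩
    have h1 : z + (σ : ℂ) * Complex.I - c0 =
        (z - x) + (σ : ℂ) * Complex.I + ((x - c0 : ℝ) : ℂ) := by push_cast; ring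
    rw [h1]
    have h2 := norm_add₃_le (a := z - x) (b := (σ : ℂ) * Complex.I) (c := ((x - c0 : ℝ) : ℂ))
    have h3 : ‖(σ : ℂ) * Complex.I‖ = σ := by
      rw [norm_mul, Complex.norm_real, Complex.norm_I, mul_one, Real.norm_of_nonneg hσ0]
    rw [h3, Complex.norm_real, Real.norm_eq_abs] at h2
    linarith
  refine ⟨by simpa using hup 0 le_rfl (by positivity), ?_⟩
  have key : ∀ w ∈ cone k h x, l.re + (A * (w - x)).re - ε₁ * ‖w - x‖ ≤ (Φ w).re := by
    intro w hw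
    have h1 := hl w hw
    have h2 := (Complex.abs_re_le_norm _).trans h1
    rw [abs_le] at h2
    have h3 := h2.1
    simp only [Complex.sub_re] at h3
    linarith
  by_cases hcone : |z.re - x| < k * z.im
  · have h1 := key z ⟨hcone, by linarith⟩
    have h2 : ε₁ * ‖z - x‖ ≤ ε * ‖z - x‖ :=
      mul_le_mul_of_nonneg_right ((min_le_left _ _).trans (by linarith)) (norm_nonneg _)
    linarith
  · push Not at hcone
    set τ : ℝ := 2 * |z.re - x| / k with hτ
    have hrp : 0 < |z.re - x| := lt_of_lt_of_le (by positivity) hcone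
    have hτ0 : 0 < τ := by positivity
    have hτ1 : τ ≤ 2 * ‖z - x‖ / k := by
      rw [hτ]; gcongr
    have hτ2 : τ ≤ 2 * ‖z - x‖ := hτ1.trans (div_le_self (by positivity) hk1)
    have hmem : z + (τ : ℂ) * Complex.I ∈ cone k h x := by
      refine ⟨?_, ?_⟩
      · have h1 : k * τ = 2 * |z.re - x| := by rw [hτ]; field_simp
        have h2 : (z + (τ : ℂ) * Complex.I).im = z.im + τ := by simp
        have h3 : (z + (τ : ℂ) * Complex.I).re = z.re := by simp
        rw [h2, h3]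
        nlinarith [mul_pos hk0 hzi]
      · have h2 : (z + (τ : ℂ) * Complex.I).im = z.im + τ := by simp
        rw [h2]; linarith
    have h1 := key _ hmem
    have h2 := M.vert hτ0.le (z := z) fun σ hσ => hup σ hσ.1 (hσ.2.trans hτ2)
    have h3 : (A * (z + (τ : ℂ) * Complex.I - x)).re = (A * (z - x)).re +
        (A * ((τ : ℂ) * Complex.I)).re := by
      rw [← Complex.add_re]; congr 1; ring
    have h4 : ‖A * ((τ : ℂ) * Complex.I)‖ = ‖A‖ * τ := by
      rw [norm_mul, norm_mul, Complex.norm_real, Complex.norm_I, mul_one,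
        Real.norm_of_nonneg hτ0.le]
    have h5 : -(‖A‖ * τ) ≤ (A * ((τ : ℂ) * Complex.I)).re := by
      have := (abs_le.1 (Complex.abs_re_le_norm (A * ((τ : ℂ) * Complex.I)))).1
      rwa [h4] at this
    have h6 : ‖z + (τ : ℂ) * Complex.I - x‖ ≤ ‖z - x‖ + τ := by
      rw [show z + (τ : ℂ) * Complex.I - x = (z - x) + (τ : ℂ) * Complex.I by ring]
      refine (norm_add_le _ _).trans ?_
      rw [norm_mul, Complex.norm_real, Complex.norm_I, mul_one, Real.norm_of_nonneg hτ0.le]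
    have h7 : ε₁ * ‖z + (τ : ℂ) * Complex.I - x‖ ≤ ε / 2 * ‖z - x‖ + τ := by
      calc ε₁ * ‖z + (τ : ℂ) * Complex.I - x‖ ≤ ε₁ * (‖z - x‖ + τ) :=
            mul_le_mul_of_nonneg_left h6 hε₁0.le
        _ = ε₁ * ‖z - x‖ + ε₁ * τ := by ring
        _ ≤ ε / 2 * ‖z - x‖ + 1 * τ := by
            gcongr
            · exact min_le_left _ _
            · exact min_le_right _ _
        _ = _ := by ring
    have h8 : C * τ ≤ |C| * τ := mul_le_mul_of_nonneg_right (le_abs_self C) hτ0.le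
    have h9 : N * τ ≤ ε / 2 * ‖z - x‖ := by
      calc N * τ ≤ N * (2 * ‖z - x‖ / k) := mul_le_mul_of_nonneg_left hτ1 hN0.le
        _ = (2 * N / k) * ‖z - x‖ := by ring
        _ ≤ ε / 2 * ‖z - x‖ := mul_le_mul_of_nonneg_right hkε (norm_nonneg _)
    have h10 : N * τ = ‖A‖ * τ + |C| * τ + τ := by rw [hN]; ring
    rw [h3] at h1
    linarith

/-- conclusions at a good real point -/
structure Good (R : ℂ → ℝ) (Φ : ℂ → ℂ) (c0 ρ x : ℝ) (A l : ℂ) : Prop where
  hl : l.re = R x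
  der : ∀ k > 0, ∃ h > 0, cone k h x ⊆ Up c0 ρ ∧ Tendsto (deriv Φ) (𝓝[cone k h x] (x : ℂ)) (𝓝 A)
  exp : ∀ k > 0, ∀ ε > 0, ∃ h > 0, cone k h x ⊆ Up c0 ρ ∧
    ∀ z ∈ cone k h x, ‖Φ z - l - A * (z - x)‖ ≤ ε * ‖z - x‖
  full : ∀ ε > 0, ∃ δ > 0, ∀ z : ℂ, 0 < z.im → ‖z - x‖ < δ → z ∈ Up c0 ρ ∧
    R x + (A * (z - x)).re - ε * ‖z - x‖ ≤ (Φ z).re
  cone : ∀ ε > 0, ∃ δ > 0, ∀ v : ℂ, ‖v‖ < δ →
    R x + A.re * v.re - A.im * |v.im| - ε * ‖v‖ ≤ R (x + v)

theorem Minor.ae_good (M : Minor R Φ c0 ρ C) (hsym : ∀ z : ℂ, R ((starRingEnd ℂ) z) = R z)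
    (hloc : ∀ x : ℝ, |x - c0| < ρ → Loc R x) {B : ℝ} (hB : ∀ z : ℂ, ‖z - c0‖ < ρ → -B ≤ R z) :
    ∀ᵐ x : ℝ, |x - c0| < ρ → ∃ A l : ℂ, Good R Φ c0 ρ x A l := by
  filter_upwards [M.ae_deriv] with x hx hxρ
  obtain ⟨A, hA⟩ := hx hxρ
  obtain ⟨l, hl, hexp⟩ := M.exp hA
  have hfull := fun (ε : ℝ) (hε : 0 < ε) => M.full hxρ hexp hε
  -- lower bound for `R` off the axis
  have hoff : ∀ ε > 0, ∃ δ > 0, ∀ v : ℂ, v.im ≠ 0 → ‖v‖ < δ →
      l.re + A.re * v.re - A.im * |v.im| - ε * ‖v‖ ≤ R (x + v) := by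
    intro ε hε
    obtain ⟨δ, hδ, h1⟩ := hfull ε hε
    refine ⟨δ, hδ, fun v hv hvδ => ?_⟩
    rcases lt_or_gt_of_ne hv with hneg | hpos
    · have h2 := h1 (x + (starRingEnd ℂ) v) (by simpa using hneg) (by
        rw [add_sub_cancel_left, RCLike.norm_conj]; exact hvδ)
      have h3 := M.le _ h2.1
      have h4 := h2.2
      rw [add_sub_cancel_left, RCLike.norm_conj] at h4
      have h5 : R (x + (starRingEnd ℂ) v) = R (x + v) := by
        rw [← hsym (x + v)]; congr 1; simp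
      have h6 : (A * (starRingEnd ℂ) v).re = A.re * v.re - A.im * |v.im| := by
        rw [Complex.mul_re, Complex.conj_re, Complex.conj_im, abs_of_neg hneg]
      rw [h5] at h3
      rw [h6] at h4
      linarith
    · have h2 := h1 (x + v) (by simpa using hpos) (by rw [add_sub_cancel_left]; exact hvδ)
      have h3 := M.le _ h2.1
      have h4 := h2.2
      rw [add_sub_cancel_left] at h4
      have h6 : (A * v).re = A.re * v.re - A.im * |v.im| := by
        rw [Complex.mul_re, abs_of_pos hpos]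
      rw [h6] at h4
      linarith
  -- lower bound at real points
  have hreal : ∀ ε > 0, ∃ δ > 0, ∀ s : ℝ, |s| < δ → l.re + A.re * s - ε * |s| ≤ R ((x + s : ℝ) : ℂ) := by
    intro ε hε
    obtain ⟨δ, hδ, h1⟩ := hoff ε hε
    refine ⟨min δ (ρ - |x - c0|), lt_min hδ (by linarith), fun s hs => ?_⟩
    have hsδ : |s| < δ := hs.trans_le (min_le_left _ _)
    have hsρ : |s| < ρ - |x - c0| := hs.trans_le (min_le_right _ _)
    have hxs : |x + s - c0| < ρ := by
      calc |x + s - c0| = |(x - c0) + s| := by congr 1; ring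
        _ ≤ |x - c0| + |s| := abs_add_le _ _
        _ < ρ := by linarith
    obtain ⟨r₀, hr₀, h2⟩ := hloc (x + s) hxs
    refine le_of_forall_pos_le_add fun η hη => ?_
    set N : ℝ := |A.re| + |A.im| + ε + 1 with hN
    have hN0 : 0 < N := by positivity
    obtain ⟨r, hr0, hr1, hr2, hr3, hr4⟩ : ∃ r : ℝ, 0 < r ∧ r < r₀ ∧ r < δ - |s| ∧
        r < ρ - |x + s - c0| ∧ N * r ≤ η := by
      refine ⟨min (min r₀ (δ - |s|)) (min (ρ - |x + s - c0|) (η / N)) / 2, ?_, ?_, ?_, ?_, ?_⟩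
      · have h3 : 0 < min (min r₀ (δ - |s|)) (min (ρ - |x + s - c0|) (η / N)) :=
          lt_min (lt_min hr₀ (by linarith)) (lt_min (by linarith) (by positivity))
        linarith
      all_goals
        have h3 : 0 < min (min r₀ (δ - |s|)) (min (ρ - |x + s - c0|) (η / N)) :=
          lt_min (lt_min hr₀ (by linarith)) (lt_min (by linarith) (by positivity))
      · have := (min_le_left (min r₀ (δ - |s|)) (min (ρ - |x + s - c0|) (η / N))).trans
          (min_le_left _ _)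
        linarith
      · have := (min_le_left (min r₀ (δ - |s|)) (min (ρ - |x + s - c0|) (η / N))).trans
          (min_le_right _ _)
        linarith
      · have := (min_le_right (min r₀ (δ - |s|)) (min (ρ - |x + s - c0|) (η / N))).trans
          (min_le_left _ _)
        linarith
      · have h4 := (min_le_right (min r₀ (δ - |s|)) (min (ρ - |x + s - c0|) (η / N))).trans
          (min_le_right _ _)
        rw [le_div_iff₀ hN0] at h4
        nlinarith
    have hcen := real_centre (R := R) (x := x + s) (ρ := r)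
      (m := l.re + A.re * s - ε * |s| - η) (B := B) hr0
      (fun GG V hV hcV hd hs' => h2 r hr0 hr1 GG V hV hcV hd hs')
      (fun w hw => hB w (by
        rw [mem_sphere, dist_eq_norm] at hw
        have h5 : w - c0 = (w - ((x + s : ℝ) : ℂ)) + ((x + s - c0 : ℝ) : ℂ) := by
          push_cast; ring
        rw [h5]
        refine (norm_add_le _ _).trans_lt ?_
        rw [hw, Complex.norm_real, Real.norm_eq_abs]
        linarith))
      (fun w hw him => by
        rw [mem_sphere, dist_eq_norm] at hw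
        set v : ℂ := w - x with hv
        have hwv : w = x + v := by rw [hv]; ring
        have hvs : v - s = w - ((x + s : ℝ) : ℂ) := by rw [hv]; push_cast; ring
        have hn1 : ‖v - s‖ = r := by rw [hvs, hw]
        have hn2 : ‖v‖ ≤ |s| + r := by
          calc ‖v‖ = ‖(v - s) + s‖ := by rw [sub_add_cancel]
            _ ≤ ‖v - s‖ + ‖(s : ℂ)‖ := norm_add_le _ _
            _ = |s| + r := by rw [hn1, Complex.norm_real, Real.norm_eq_abs]; ring
        have hre : |v.re - s| ≤ r := by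
          have := Complex.abs_re_le_norm (v - s)
          rw [hn1] at this
          simpa using this
        have him2 : |v.im| ≤ r := by
          have := Complex.abs_im_le_norm (v - s)
          rw [hn1] at this
          simpa using this
        have hvim : v.im ≠ 0 := by rw [hv]; simpa using him
        have h6 := h1 v hvim (by linarith)
        rw [← hwv] at h6
        have h7 : A.re * v.re ≥ A.re * s - |A.re| * r := by
          have h8 : |A.re * (v.re - s)| ≤ |A.re| * r := by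
            rw [abs_mul]; gcongr
          have := (abs_le.1 h8).1
          nlinarith
        have h9 : A.im * |v.im| ≤ |A.im| * r := by
          calc A.im * |v.im| ≤ |A.im| * |v.im| :=
                mul_le_mul_of_nonneg_right (le_abs_self _) (abs_nonneg _)
            _ ≤ |A.im| * r := by gcongr
        have h10 : ε * ‖v‖ ≤ ε * (|s| + r) := by gcongr
        have h11 : N * r = |A.re| * r + |A.im| * r + ε * r + r := by rw [hN]; ring
        nlinarith)
    linarith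
  have hlR : l.re = R x := by
    apply le_antisymm
    · refine le_of_forall_pos_le_add fun η hη => ?_
      obtain ⟨δ, hδ, h1⟩ := hreal 1 one_pos
      have := h1 0 (by simpa using hδ)
      simp only [mul_zero, abs_zero, sub_zero, add_zero] at this
      linarith
    · by_contra hlt
      push Not at hlt
      have h1 := M.bd x hxρ ((l.re + R x) / 2) (by linarith)
      have h2 : Tendsto (fun τ : ℝ => (x : ℂ) + (τ : ℂ) * Complex.I) (𝓝[>] 0)
          (𝓝[{z : ℂ | 0 < z.im}] (x : ℂ)) := by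
        refine tendsto_nhdsWithin_iff.2 ⟨?_, ?_⟩
        · have h0 : Continuous fun τ : ℝ => (x : ℂ) + (τ : ℂ) * Complex.I := by fun_prop
          have := h0.tendsto 0
          simp only [Complex.ofReal_zero, zero_mul, add_zero] at this
          exact this.mono_left nhdsWithin_le_nhds
        · filter_upwards [self_mem_nhdsWithin] with τ hτ
          simpa using hτ
      have h3 : Tendsto (fun τ : ℝ => (Φ (x + (τ : ℂ) * Complex.I)).re) (𝓝[>] 0) (𝓝 l.re) :=
        (Complex.continuous_re.tendsto l).comp hl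
      have h4 := ge_of_tendsto h3 ((h2.eventually h1).mono fun τ hτ => hτ.le)
      linarith
  refine ⟨A, l, hlR, hA, hexp, ?_, ?_⟩
  · intro ε hε
    rw [← hlR]
    exact hfull ε hε
  · intro ε hε
    obtain ⟨δ₁, hδ₁, h1⟩ := hoff ε hε
    obtain ⟨δ₂, hδ₂, h2⟩ := hreal ε hε
    refine ⟨min δ₁ δ₂, lt_min hδ₁ hδ₂, fun v hv => ?_⟩
    rw [← hlR]
    by_cases him : v.im = 0
    · have hvr : v = (v.re : ℂ) := Complex.ext (by simp) (by simp [him])
      have hn : ‖v‖ = |v.re| := by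
        conv_lhs => rw [hvr]
        rw [Complex.norm_real, Real.norm_eq_abs]
      have h3 := h2 v.re (by rw [← hn]; exact hv.trans_le (min_le_right _ _))
      rw [him, abs_zero, mul_zero, sub_zero, hn]
      have h4 : ((x + v.re : ℝ) : ℂ) = x + v := by
        conv_rhs => rw [hvr]
        push_cast; ring
      rwa [h4] at h3
    · exact h1 v him (hv.trans_le (min_le_left _ _))

end Vale.Agent.P097.H839.Cone
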