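import Mathlib
import Vale.Agent.P097.H839.OdeA

/-!
# Picard iteration near a given solution

`flow_near0`: the equation `v' = H(s, v)` with `H(s, 0) = 0`, `H` holomorphic, on a bounded convex
open set of times has a holomorphic family of solutions.
-/

open Set Filter Metric Topology

namespace Vale.Agent.P097.H839.Ode

open Vale.Agent.P097.Hol

variable {W : Type*} [NormedAddCommGroup W] [NormedSpace ℂ W]

/-- Picard iterates; `z0` the initial time, `a` the initial value. -/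
noncomputable def pic (H : ℂ × W → W) (z0 : ℂ) : ℕ → ℂ × W → W
  | 0 => fun p => p.2
  | k + 1 => fun p => p.2 + (p.1 - z0) •
      ∫ θ in (0 : ℝ)..1, H (z0 + (θ : ℂ) * (p.1 - z0), pic H z0 k (z0 + (θ : ℂ) * (p.1 - z0), p.2))

section

variable {H : ℂ × W → W} {S : Set ℂ} {z0 : ℂ} {L ρ R : ℝ}

theorem seg_mem (hSc : Convex ℝ S) (hz0 : z0 ∈ S) {s : ℂ} (hs : s ∈ S) {θ : ℝ}
    (hθ : θ ∈ Icc (0 : ℝ) 1) : z0 + (θ : ℂ) * (s - z0) ∈ S := by
  have := hSc hz0 hs (sub_nonneg.2 hθ.2) hθ.1 (by ring)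
  rw [Complex.real_smul, Complex.real_smul] at this
  rw [show z0 + (θ : ℂ) * (s - z0) = ((1 - θ : ℝ) : ℂ) * z0 + (θ : ℂ) * s by push_cast; ring]
  exact this

theorem seg_norm {s : ℂ} {θ : ℝ} (hθ : θ ∈ Icc (0 : ℝ) 1) :
    ‖z0 + (θ : ℂ) * (s - z0) - z0‖ = θ * ‖s - z0‖ := by
  rw [add_sub_cancel_left, norm_mul, Complex.norm_real, Real.norm_of_nonneg hθ.1]

/-- The data for the iteration. -/
structure Dat (H : ℂ × W → W) (S : Set ℂ) (z0 : ℂ) (L ρ R : ℝ) : Prop where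
  hS : IsOpen S
  hSc : Convex ℝ S
  hz0 : z0 ∈ S
  hL : 0 < L
  hρ : 0 < ρ
  hR : ∀ s ∈ S, ‖s - z0‖ ≤ R
  hH : DifferentiableOn ℂ H (S ×ˢ ball (0 : W) ρ)
  hH0 : ∀ s ∈ S, H (s, 0) = 0
  hHL : ∀ s ∈ S, ∀ v ∈ ball (0 : W) ρ, ∀ v' ∈ ball (0 : W) ρ, ‖H (s, v) - H (s, v')‖ ≤ L * ‖v - v'‖

/-- radius of the initial values -/
noncomputable def rad (L ρ R : ℝ) : ℝ := ρ * Real.exp (-(2 * L * R))

theorem Dat.rad_pos (D : Dat H S z0 L ρ R) : 0 < rad L ρ R := mul_pos D.hρ (Real.exp_pos _)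

theorem Dat.weight (D : Dat H S z0 L ρ R) {s : ℂ} (hs : s ∈ S) {a : W}
    (ha : a ∈ ball (0 : W) (rad L ρ R)) : ‖a‖ * Real.exp (2 * L * ‖s - z0‖) < ρ := by
  rw [mem_ball_zero_iff] at ha
  have h1 : Real.exp (2 * L * ‖s - z0‖) ≤ Real.exp (2 * L * R) :=
    Real.exp_le_exp.2 (mul_le_mul_of_nonneg_left (D.hR s hs) (by linarith [D.hL]))
  calc ‖a‖ * Real.exp (2 * L * ‖s - z0‖) ≤ ‖a‖ * Real.exp (2 * L * R) :=
        mul_le_mul_of_nonneg_left h1 (norm_nonneg a)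
    _ < rad L ρ R * Real.exp (2 * L * R) := mul_lt_mul_of_pos_right ha (Real.exp_pos _)
    _ = ρ := by
        rw [rad, mul_assoc, ← Real.exp_add]; simp

theorem Dat.bound (D : Dat H S z0 L ρ R) (k : ℕ) : ∀ s ∈ S, ∀ a ∈ ball (0 : W) (rad L ρ R),
    ‖pic H z0 k (s, a)‖ ≤ ‖a‖ * Real.exp (2 * L * ‖s - z0‖) := by
  induction k with
  | zero =>
    intro s _ a _
    have h1 : (1 : ℝ) ≤ Real.exp (2 * L * ‖s - z0‖) :=
      Real.one_le_exp (mul_nonneg (by linarith [D.hL]) (norm_nonneg _))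
    show ‖a‖ ≤ _
    nlinarith [norm_nonneg a]
  | succ k ih =>
    intro s hs a ha
    show ‖a + (s - z0) • ∫ θ in (0 : ℝ)..1, H (z0 + (θ : ℂ) * (s - z0),
      pic H z0 k (z0 + (θ : ℂ) * (s - z0), a))‖ ≤ _
    have h1 : ∀ θ ∈ Icc (0 : ℝ) 1, ‖H (z0 + (θ : ℂ) * (s - z0),
        pic H z0 k (z0 + (θ : ℂ) * (s - z0), a))‖ ≤
        L * (‖a‖ * Real.exp (2 * L * (θ * ‖s - z0‖))) := by
      intro θ hθ
      have hm := seg_mem D.hSc D.hz0 hs hθ
      have h2 := ih _ hm a ha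
      have h3 : pic H z0 k (z0 + (θ : ℂ) * (s - z0), a) ∈ ball (0 : W) ρ :=
        mem_ball_zero_iff.2 (h2.trans_lt (D.weight hm ha))
      have h4 := D.hHL _ hm _ h3 0 (mem_ball_self D.hρ)
      rw [D.hH0 _ hm, sub_zero, sub_zero] at h4
      rw [seg_norm hθ] at h2
      exact h4.trans (mul_le_mul_of_nonneg_left h2 D.hL.le)
    have h5 := mul_norm_integral_le (norm_nonneg (s - z0)) h1
    calc _ ≤ ‖a‖ + ‖s - z0‖ * ‖∫ θ in (0 : ℝ)..1, H (z0 + (θ : ℂ) * (s - z0),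
          pic H z0 k (z0 + (θ : ℂ) * (s - z0), a))‖ := by
          refine (norm_add_le _ _).trans ?_
          rw [norm_smul]
      _ ≤ ‖a‖ + ‖a‖ / 2 * (Real.exp (2 * L * ‖s - z0‖) - 1) := by linarith
      _ ≤ ‖a‖ * Real.exp (2 * L * ‖s - z0‖) := by
          have h1 : (1 : ℝ) ≤ Real.exp (2 * L * ‖s - z0‖) :=
            Real.one_le_exp (mul_nonneg (by linarith [D.hL]) (norm_nonneg _))
          nlinarith [norm_nonneg a]

theorem Dat.mem (D : Dat H S z0 L ρ R) (k : ℕ) {s : ℂ} (hs : s ∈ S) {a : W}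
    (ha : a ∈ ball (0 : W) (rad L ρ R)) : pic H z0 k (s, a) ∈ ball (0 : W) ρ :=
  mem_ball_zero_iff.2 ((D.bound k s hs a ha).trans_lt (D.weight hs ha))

/-- the map `(s, a, θ) ↦ (z_θ, a)` -/
theorem Dat.segmap (D : Dat H S z0 L ρ R) {θ : ℝ} (hθ : θ ∈ Icc (0 : ℝ) 1) :
    MapsTo (fun p : ℂ × W => (z0 + (θ : ℂ) * (p.1 - z0), p.2))
      (S ×ˢ ball (0 : W) (rad L ρ R)) (S ×ˢ ball (0 : W) (rad L ρ R)) :=
  fun _ hp => ⟨seg_mem D.hSc D.hz0 hp.1 hθ, hp.2⟩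

/-- composition of `H` with a holomorphic function along segments -/
theorem Dat.int [FiniteDimensional ℂ W] (D : Dat H S z0 L ρ R) {u : ℂ × W → W}
    (hu : DifferentiableOn ℂ u (S ×ˢ ball (0 : W) (rad L ρ R)))
    (hum : ∀ s ∈ S, ∀ a ∈ ball (0 : W) (rad L ρ R), u (s, a) ∈ ball (0 : W) ρ) :
    DifferentiableOn ℂ (fun p : ℂ × W => p.2 + (p.1 - z0) •
      ∫ θ in (0 : ℝ)..1, H (z0 + (θ : ℂ) * (p.1 - z0), u (z0 + (θ : ℂ) * (p.1 - z0), p.2)))
      (S ×ˢ ball (0 : W) (rad L ρ R)) := by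
  have : CompleteSpace W := FiniteDimensional.complete ℂ W
  have hD : IsOpen (S ×ˢ ball (0 : W) (rad L ρ R)) := D.hS.prod isOpen_ball
  refine DifferentiableOn.add (by fun_prop) (DifferentiableOn.smul (by fun_prop) ?_)
  refine differentiableOn_intervalIntegral (G := fun q : (ℂ × W) × ℝ =>
    H (z0 + (q.2 : ℂ) * (q.1.1 - z0), u (z0 + (q.2 : ℂ) * (q.1.1 - z0), q.1.2))) hD ?_ ?_
  · have h1 : ContinuousOn (fun q : (ℂ × W) × ℝ =>
        u (z0 + (q.2 : ℂ) * (q.1.1 - z0), q.1.2)) ((S ×ˢ ball (0 : W) (rad L ρ R)) ×ˢ Icc (0 : ℝ) 1) :=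
      hu.continuousOn.comp (by fun_prop) fun q hq => D.segmap hq.2 hq.1
    refine D.hH.continuousOn.comp ((by fun_prop : Continuous fun q : (ℂ × W) × ℝ =>
      z0 + (q.2 : ℂ) * (q.1.1 - z0)).continuousOn.prodMk h1) fun q hq => ?_
    exact ⟨seg_mem D.hSc D.hz0 hq.1.1 hq.2, hum _ (seg_mem D.hSc D.hz0 hq.1.1 hq.2) _ hq.1.2⟩
  · intro θ hθ
    have h1 : DifferentiableOn ℂ (fun p : ℂ × W => u (z0 + (θ : ℂ) * (p.1 - z0), p.2))
        (S ×ˢ ball (0 : W) (rad L ρ R)) :=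
      hu.comp (by fun_prop) (D.segmap hθ)
    have h2 : DifferentiableOn ℂ (fun p : ℂ × W => z0 + (θ : ℂ) * (p.1 - z0))
        (S ×ˢ ball (0 : W) (rad L ρ R)) := by fun_prop
    refine D.hH.comp (DifferentiableOn.prodMk h2 h1) fun p hp => ?_
    exact ⟨seg_mem D.hSc D.hz0 hp.1 hθ, hum _ (seg_mem D.hSc D.hz0 hp.1 hθ) _ hp.2⟩

theorem Dat.diff [FiniteDimensional ℂ W] (D : Dat H S z0 L ρ R) (k : ℕ) :
    DifferentiableOn ℂ (pic H z0 k) (S ×ˢ ball (0 : W) (rad L ρ R)) := by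
  induction k with
  | zero =>
    show DifferentiableOn ℂ (fun p : ℂ × W => p.2) _
    fun_prop
  | succ k ih => exact D.int ih fun s hs a ha => D.mem k hs ha

theorem Dat.intble [FiniteDimensional ℂ W] (D : Dat H S z0 L ρ R) {u : ℂ × W → W}
    (hu : ContinuousOn u (S ×ˢ ball (0 : W) (rad L ρ R)))
    (hum : ∀ s ∈ S, ∀ a ∈ ball (0 : W) (rad L ρ R), u (s, a) ∈ ball (0 : W) ρ) {s : ℂ} (hs : s ∈ S)
    {a : W} (ha : a ∈ ball (0 : W) (rad L ρ R)) :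
    IntervalIntegrable (fun θ : ℝ => H (z0 + (θ : ℂ) * (s - z0),
      u (z0 + (θ : ℂ) * (s - z0), a))) MeasureTheory.volume 0 1 := by
  apply ContinuousOn.intervalIntegrable
  rw [uIcc_of_le zero_le_one]
  have h1 : ContinuousOn (fun θ : ℝ => u (z0 + (θ : ℂ) * (s - z0), a)) (Icc (0 : ℝ) 1) :=
    hu.comp (by fun_prop) fun θ hθ => ⟨seg_mem D.hSc D.hz0 hs hθ, ha⟩
  refine D.hH.continuousOn.comp ((by fun_prop : Continuous fun θ : ℝ =>
      z0 + (θ : ℂ) * (s - z0)).continuousOn.prodMk h1) fun θ hθ => ?_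
  exact ⟨seg_mem D.hSc D.hz0 hs hθ, hum _ (seg_mem D.hSc D.hz0 hs hθ) _ ha⟩

theorem Dat.step [FiniteDimensional ℂ W] (D : Dat H S z0 L ρ R) {u u' : ℂ × W → W} {C : ℝ}
    (hu : ContinuousOn u (S ×ˢ ball (0 : W) (rad L ρ R)))
    (hum : ∀ s ∈ S, ∀ a ∈ ball (0 : W) (rad L ρ R), u (s, a) ∈ ball (0 : W) ρ)
    (hu' : ContinuousOn u' (S ×ˢ ball (0 : W) (rad L ρ R)))
    (hum' : ∀ s ∈ S, ∀ a ∈ ball (0 : W) (rad L ρ R), u' (s, a) ∈ ball (0 : W) ρ)
    {a : W} (ha : a ∈ ball (0 : W) (rad L ρ R)) (hC0 : 0 ≤ C)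
    (hC : ∀ s ∈ S, ‖u (s, a) - u' (s, a)‖ ≤ C * Real.exp (2 * L * ‖s - z0‖)) {s : ℂ} (hs : s ∈ S) :
    ‖(a + (s - z0) • ∫ θ in (0 : ℝ)..1, H (z0 + (θ : ℂ) * (s - z0),
        u (z0 + (θ : ℂ) * (s - z0), a))) -
      (a + (s - z0) • ∫ θ in (0 : ℝ)..1, H (z0 + (θ : ℂ) * (s - z0),
        u' (z0 + (θ : ℂ) * (s - z0), a)))‖ ≤ C / 2 * Real.exp (2 * L * ‖s - z0‖) := by
  rw [add_sub_add_left_eq_sub, ← smul_sub, ← intervalIntegral.integral_sub
    (D.intble hu hum hs ha) (D.intble hu' hum' hs ha), norm_smul]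
  refine (mul_norm_integral_le (c := C) (L := L) (norm_nonneg (s - z0)) fun θ hθ => ?_).trans ?_
  · have hm := seg_mem D.hSc D.hz0 hs hθ
    refine (D.hHL _ hm _ (hum _ hm _ ha) _ (hum' _ hm _ ha)).trans
      (mul_le_mul_of_nonneg_left ?_ D.hL.le)
    have := hC _ hm
    rwa [seg_norm hθ] at this
  · nlinarith

theorem Dat.cauchy [FiniteDimensional ℂ W] (D : Dat H S z0 L ρ R) (k : ℕ) :
    ∀ s ∈ S, ∀ a ∈ ball (0 : W) (rad L ρ R),
    ‖pic H z0 (k + 1) (s, a) - pic H z0 k (s, a)‖ ≤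
      2 * ‖a‖ * (1 / 2) ^ k * Real.exp (2 * L * ‖s - z0‖) := by
  induction k with
  | zero =>
    intro s hs a ha
    have h1 := D.bound 1 s hs a ha
    have h2 := D.bound 0 s hs a ha
    have h3 := norm_sub_le (pic H z0 (0 + 1) (s, a)) (pic H z0 0 (s, a))
    simp only [pow_zero, mul_one, zero_add] at h3 ⊢
    linarith
  | succ k ih =>
    intro s hs a ha
    have h1 := D.step (D.diff (k + 1)).continuousOn (fun s hs a ha => D.mem (k + 1) hs ha)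
      (D.diff k).continuousOn (fun s hs a ha => D.mem k hs ha) ha
      (C := 2 * ‖a‖ * (1 / 2) ^ k) (by positivity) (fun s hs => ih s hs a ha) hs
    refine h1.trans (le_of_eq ?_)
    rw [pow_succ]; ring

/-- the limit -/
noncomputable def lim (H : ℂ × W → W) (z0 : ℂ) (p : ℂ × W) : W :=
  limUnder atTop fun k => pic H z0 k p

theorem Dat.tendsto [FiniteDimensional ℂ W] (D : Dat H S z0 L ρ R) {s : ℂ} (hs : s ∈ S) {a : W}
    (ha : a ∈ ball (0 : W) (rad L ρ R)) :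
    Tendsto (fun k => pic H z0 k (s, a)) atTop (𝓝 (lim H z0 (s, a))) := by
  have : CompleteSpace W := FiniteDimensional.complete ℂ W
  apply CauchySeq.tendsto_limUnder
  refine cauchySeq_of_le_geometric (1 / 2) (2 * ‖a‖ * Real.exp (2 * L * ‖s - z0‖)) (by norm_num)
    fun k => ?_
  rw [dist_comm, dist_eq_norm]
  refine (D.cauchy k s hs a ha).trans (le_of_eq (by ring))

theorem Dat.dist_lim [FiniteDimensional ℂ W] (D : Dat H S z0 L ρ R) {s : ℂ} (hs : s ∈ S) {a : W}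
    (ha : a ∈ ball (0 : W) (rad L ρ R)) (k : ℕ) :
    ‖pic H z0 k (s, a) - lim H z0 (s, a)‖ ≤
      4 * ‖a‖ * (1 / 2) ^ k * Real.exp (2 * L * ‖s - z0‖) := by
  have h := dist_le_of_le_geometric_of_tendsto (1 / 2) (2 * ‖a‖ * Real.exp (2 * L * ‖s - z0‖))
    (by norm_num) (fun k => by
      rw [dist_comm, dist_eq_norm]
      exact (D.cauchy k s hs a ha).trans (le_of_eq (by ring))) (D.tendsto hs ha) k
  rw [dist_eq_norm] at h
  refine h.trans (le_of_eq ?_)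
  ring

theorem Dat.lim_bound [FiniteDimensional ℂ W] (D : Dat H S z0 L ρ R) {s : ℂ} (hs : s ∈ S) {a : W}
    (ha : a ∈ ball (0 : W) (rad L ρ R)) :
    ‖lim H z0 (s, a)‖ ≤ ‖a‖ * Real.exp (2 * L * ‖s - z0‖) :=
  le_of_tendsto (D.tendsto hs ha).norm (Eventually.of_forall fun k => D.bound k s hs a ha)

theorem Dat.lim_mem [FiniteDimensional ℂ W] (D : Dat H S z0 L ρ R) {s : ℂ} (hs : s ∈ S) {a : W}
    (ha : a ∈ ball (0 : W) (rad L ρ R)) : lim H z0 (s, a) ∈ ball (0 : W) ρ :=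
  mem_ball_zero_iff.2 ((D.lim_bound hs ha).trans_lt (D.weight hs ha))

theorem Dat.lim_diff [FiniteDimensional ℂ W] (D : Dat H S z0 L ρ R) :
    DifferentiableOn ℂ (lim H z0) (S ×ˢ ball (0 : W) (rad L ρ R)) := by
  have : CompleteSpace W := FiniteDimensional.complete ℂ W
  refine differentiableOn_of_geometric (D.hS.prod isOpen_ball) (q := 1 / 2)
    (C := 2 * rad L ρ R * Real.exp (2 * L * R)) (by norm_num) (by norm_num) D.diff ?_
    (fun p hp => D.tendsto hp.1 hp.2)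
  rintro k ⟨s, a⟩ ⟨hs, ha⟩
  refine (D.cauchy k s hs a ha).trans ?_
  have h1 : Real.exp (2 * L * ‖s - z0‖) ≤ Real.exp (2 * L * R) :=
    Real.exp_le_exp.2 (mul_le_mul_of_nonneg_left (D.hR s hs) (by linarith [D.hL]))
  have h2 : ‖a‖ ≤ rad L ρ R := (mem_ball_zero_iff.1 ha).le
  calc 2 * ‖a‖ * (1 / 2) ^ k * Real.exp (2 * L * ‖s - z0‖)
      ≤ 2 * rad L ρ R * (1 / 2) ^ k * Real.exp (2 * L * R) := by
        have := D.rad_pos
        gcongr
    _ = _ := by ring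

theorem Dat.fixed [FiniteDimensional ℂ W] (D : Dat H S z0 L ρ R) {s : ℂ} (hs : s ∈ S) {a : W}
    (ha : a ∈ ball (0 : W) (rad L ρ R)) :
    lim H z0 (s, a) = a + (s - z0) • ∫ θ in (0 : ℝ)..1, H (z0 + (θ : ℂ) * (s - z0),
      lim H z0 (z0 + (θ : ℂ) * (s - z0), a)) := by
  refine tendsto_nhds_unique ((tendsto_add_atTop_iff_nat 1).2 (D.tendsto hs ha)) ?_
  rw [tendsto_iff_norm_sub_tendsto_zero]
  have h1 : ∀ k : ℕ, ‖pic H z0 (k + 1) (s, a) - (a + (s - z0) • ∫ θ in (0 : ℝ)..1,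
      H (z0 + (θ : ℂ) * (s - z0), lim H z0 (z0 + (θ : ℂ) * (s - z0), a)))‖ ≤
      (4 * ‖a‖ * Real.exp (2 * L * ‖s - z0‖) / 2) * (1 / 2) ^ k := by
    intro k
    have h1 := D.step (D.diff k).continuousOn (fun s hs a ha => D.mem k hs ha)
      D.lim_diff.continuousOn (fun s hs a ha => D.lim_mem hs ha) ha
      (C := 4 * ‖a‖ * (1 / 2) ^ k) (by positivity) (fun s hs => D.dist_lim hs ha k) hs
    refine h1.trans (le_of_eq ?_)
    ring
  refine squeeze_zero (fun _ => norm_nonneg _) h1 ?_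
  have := (tendsto_pow_atTop_nhds_zero_of_lt_one (r := (1 / 2 : ℝ)) (by norm_num)
    (by norm_num)).const_mul (4 * ‖a‖ * Real.exp (2 * L * ‖s - z0‖) / 2)
  simpa using this

theorem Dat.init [FiniteDimensional ℂ W] (D : Dat H S z0 L ρ R) {a : W}
    (ha : a ∈ ball (0 : W) (rad L ρ R)) : lim H z0 (z0, a) = a := by
  rw [D.fixed D.hz0 ha]; simp

theorem Dat.deriv [FiniteDimensional ℂ W] (D : Dat H S z0 L ρ R) {s : ℂ} (hs : s ∈ S) {a : W}
    (ha : a ∈ ball (0 : W) (rad L ρ R)) :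
    HasDerivAt (fun s => lim H z0 (s, a)) (H (s, lim H z0 (s, a))) s := by
  have : CompleteSpace W := FiniteDimensional.complete ℂ W
  have h1 : DifferentiableOn ℂ (fun s => H (s, lim H z0 (s, a))) S := by
    refine D.hH.comp (DifferentiableOn.prodMk (by fun_prop)
      (D.lim_diff.comp (by fun_prop) fun s hs => ⟨hs, ha⟩)) fun s hs => ⟨hs, D.lim_mem hs ha⟩
  obtain ⟨P, hP⟩ := D.hSc.exists_forall_hasDerivWithinAt h1
  have hP' : ∀ t ∈ S, HasDerivAt P (H (t, lim H z0 (t, a))) t :=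
    fun t ht => (hP t ht).hasDerivAt (D.hS.mem_nhds ht)
  have h2 : ∀ t ∈ S, lim H z0 (t, a) = a + (P t - P z0) := by
    intro t ht
    rw [D.fixed ht ha]
    congr 1
    have h3 : ∫ θ in (0 : ℝ)..1, (t - z0) • H (z0 + (θ : ℂ) * (t - z0),
        lim H z0 (z0 + (θ : ℂ) * (t - z0), a)) =
        P (z0 + ((1 : ℝ) : ℂ) * (t - z0)) - P (z0 + ((0 : ℝ) : ℂ) * (t - z0)) := by
      apply intervalIntegral.integral_eq_sub_of_hasDerivAt
        (f := fun θ : ℝ => P (z0 + (θ : ℂ) * (t - z0)))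
      · intro θ hθ
        rw [uIcc_of_le zero_le_one] at hθ
        have h4 : HasDerivAt (fun θ : ℝ => z0 + (θ : ℂ) * (t - z0)) (1 * (t - z0)) θ :=
          ((Complex.ofRealCLM.hasDerivAt (x := θ)).mul_const (t - z0)).const_add z0
        have h5 := (hP' _ (seg_mem D.hSc D.hz0 ht hθ)).scomp θ h4
        rw [one_mul] at h5
        exact h5
      · exact (D.intble D.lim_diff.continuousOn (fun s hs a ha => D.lim_mem hs ha) ht ha).smul _
    rw [intervalIntegral.integral_smul] at h3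
    rw [h3]
    simp
  have h6 : HasDerivAt (fun t => a + (P t - P z0)) (H (s, lim H z0 (s, a))) s :=
    ((hP' s hs).sub_const (P z0)).const_add a
  exact h6.congr_of_eventuallyEq (by
    filter_upwards [D.hS.mem_nhds hs] with t ht using h2 t ht)

end

end Vale.Agent.P097.H839.Ode
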