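import Mathlib
import Vale.Agent.P097.H839.OdeB

/-!
# Holomorphic families of solutions near a given solution

`flow_near`: if `y0` is a solution of `y' = G(s, y)` on a convex open set `S` of times (inside a
compact set `T` on which `y0` is continuous and stays in the domain of `G`), then all initial values
near `y0 z0` give solutions on all of `S`, depending holomorphically on `(s, a)`.
`flow_param`: the same with parameters.
-/

open Set Filter Metric Topology

namespace Vale.Agent.P097.H839.Ode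

open Vale.Agent.P097.Hol

variable {W : Type*} [NormedAddCommGroup W] [NormedSpace ℂ W]

theorem flow_near [FiniteDimensional ℂ W] {S T : Set ℂ} (hS : IsOpen S) (hSc : Convex ℝ S)
    {z0 : ℂ} (hz0 : z0 ∈ S) (hT : IsCompact T) (hST : S ⊆ T) {O : Set (ℂ × W)} (hO : IsOpen O)
    {G : ℂ × W → W} (hG : DifferentiableOn ℂ G O) {y0 : ℂ → W} (hyc : ContinuousOn y0 T)
    (hyO : ∀ s ∈ T, (s, y0 s) ∈ O) (hyd : ∀ s ∈ S, HasDerivAt y0 (G (s, y0 s)) s) :
    ∃ d > 0, ∃ C : ℝ, ∃ Y : ℂ × W → W, DifferentiableOn ℂ Y (S ×ˢ ball (y0 z0) d) ∧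
      (∀ w ∈ ball (y0 z0) d, Y (z0, w) = w) ∧
      ∀ s ∈ S, ∀ w ∈ ball (y0 z0) d, (s, Y (s, w)) ∈ O ∧
        HasDerivAt (fun s => Y (s, w)) (G (s, Y (s, w))) s ∧
        ‖Y (s, w) - y0 s‖ ≤ C * ‖w - y0 z0‖ := by
  have hP : ProperSpace W := FiniteDimensional.proper ℂ W
  -- the tube around the graph
  set K : Set (ℂ × W) := (fun s => (s, y0 s)) '' T with hK
  have hKc : IsCompact K := hT.image_of_continuousOn (continuousOn_id.prodMk hyc)
  have hKO : K ⊆ O := by
    rintro _ ⟨s, hs, rfl⟩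
    exact hyO s hs
  obtain ⟨δ, hδ, hδO⟩ := hKc.exists_cthickening_subset_open hO hKO
  have hcc : IsCompact (cthickening δ K) := hKc.cthickening
  obtain ⟨M, hM⟩ := hcc.exists_bound_of_continuousOn (hG.continuousOn.mono hδO)
  have hmem : ∀ s ∈ T, ∀ v : W, ‖v‖ ≤ δ → (s, y0 s + v) ∈ cthickening δ K := by
    intro s hs v hv
    refine mem_cthickening_of_dist_le (s, y0 s + v) (s, y0 s) δ K (mem_image_of_mem _ hs) ?_
    rw [Prod.dist_eq, dist_self, dist_eq_norm, add_sub_cancel_left]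
    exact max_le hδ.le hv
  have hM0 : 0 ≤ M := by
    have := hmem z0 (hST hz0) 0 (by simpa using hδ.le)
    exact (norm_nonneg _).trans (hM _ this)
  -- the shifted system
  set H : ℂ × W → W := fun p => G (p.1, y0 p.1 + p.2) - G (p.1, y0 p.1) with hH
  set ρ : ℝ := δ / 2 with hρdef
  have hρ : 0 < ρ := by positivity
  obtain ⟨R, hR⟩ := hT.isBounded.subset_closedBall z0
  have hy0d : DifferentiableOn ℂ y0 S := fun s hs => (hyd s hs).differentiableAt.differentiableWithinAt
  have D : Dat H S z0 (M / ρ + 1) ρ R := by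
    refine ⟨hS, hSc, hz0, by positivity, hρ, ?_, ?_, ?_, ?_⟩
    · intro s hs
      have := hR (hST hs)
      rwa [mem_closedBall, dist_eq_norm] at this
    · have h1 : DifferentiableOn ℂ (fun p : ℂ × W => y0 p.1) (S ×ˢ ball (0 : W) ρ) :=
        hy0d.comp (by fun_prop) fun p hp => hp.1
      refine DifferentiableOn.sub ?_ ?_
      · refine hG.comp (DifferentiableOn.prodMk (by fun_prop) (h1.add (by fun_prop))) ?_
        intro p hp
        refine hδO (hmem p.1 (hST hp.1) p.2 ?_)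
        have := mem_ball_zero_iff.1 hp.2
        linarith
      · exact hG.comp (DifferentiableOn.prodMk (by fun_prop) h1) fun p hp => hyO _ (hST hp.1)
    · intro s _
      simp [hH]
    · intro s hs v hv v' hv'
      have h1 : ∀ x ∈ ball (0 : W) ρ, ball x ρ ⊆ {x | ‖x‖ ≤ δ} := by
        intro x hx y hy
        rw [mem_ball_zero_iff] at hx
        rw [mem_ball, dist_eq_norm] at hy
        have : ‖y‖ ≤ ‖y - x‖ + ‖x‖ := by
          simpa using norm_add_le (y - x) x
        show ‖y‖ ≤ δ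
        linarith
      have h2 : ∀ x ∈ ball (0 : W) ρ, DifferentiableOn ℂ (fun v => G (s, y0 s + v)) (ball x ρ) :=
        fun x hx => hG.comp (by fun_prop) fun y hy => hδO (hmem s (hST hs) y (h1 x hx hy))
      have h3 : ∀ x ∈ ball (0 : W) ρ, ‖fderiv ℂ (fun v => G (s, y0 s + v)) x‖ ≤ M / ρ + 1 := by
        intro x hx
        refine (norm_fderiv_le_of_ball hρ (h2 x hx) (C := M) fun y hy => ?_).trans (by linarith)
        exact hM _ (hmem s (hST hs) y (h1 x hx hy))
      have h4 := (convex_ball (0 : W) ρ).norm_image_sub_le_of_norm_fderiv_le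
        (f := fun v => G (s, y0 s + v)) (𝕜 := ℂ)
        (fun x hx => (h2 x hx).differentiableAt (ball_mem_nhds x hρ)) h3 hv' hv
      simp only [hH]
      rw [sub_sub_sub_cancel_right]
      exact h4
  refine ⟨rad (M / ρ + 1) ρ R, D.rad_pos, Real.exp (2 * (M / ρ + 1) * R),
    fun p => y0 p.1 + lim H z0 (p.1, p.2 - y0 z0), ?_, ?_, ?_⟩
  · refine DifferentiableOn.add (hy0d.comp (by fun_prop) fun p hp => hp.1) ?_
    refine D.lim_diff.comp (by fun_prop) fun p hp => ⟨hp.1, ?_⟩
    rw [mem_ball_zero_iff, ← dist_eq_norm]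
    exact hp.2
  · intro w hw
    have hw' : w - y0 z0 ∈ ball (0 : W) (rad (M / ρ + 1) ρ R) := by
      rw [mem_ball_zero_iff, ← dist_eq_norm]; exact hw
    show y0 z0 + lim H z0 (z0, w - y0 z0) = w
    rw [D.init hw']; abel
  · intro s hs w hw
    have hw' : w - y0 z0 ∈ ball (0 : W) (rad (M / ρ + 1) ρ R) := by
      rw [mem_ball_zero_iff, ← dist_eq_norm]; exact hw
    have hb := mem_ball_zero_iff.1 (D.lim_mem hs hw')
    refine ⟨hδO (hmem s (hST hs) _ (by linarith)), ?_, ?_⟩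
    · have h1 := (hyd s hs).add (D.deriv hs hw')
      simp only [hH] at h1
      rw [add_sub_cancel] at h1
      exact h1
    · show ‖y0 s + lim H z0 (s, w - y0 z0) - y0 s‖ ≤ _
      rw [add_sub_cancel_left]
      refine (D.lim_bound hs hw').trans ?_
      rw [mul_comm]
      refine mul_le_mul_of_nonneg_right (Real.exp_le_exp.2 ?_) (norm_nonneg _)
      exact mul_le_mul_of_nonneg_left (D.hR s hs) (by linarith [D.hL])

variable {V P : Type*} [NormedAddCommGroup V] [NormedSpace ℂ V] [NormedAddCommGroup P]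
  [NormedSpace ℂ P]

/-- Solutions near a given solution, with parameters: `V` finite dimensional state space, `P` finite
dimensional parameter space. -/
theorem flow_param [FiniteDimensional ℂ V] [FiniteDimensional ℂ P] {S T : Set ℂ} (hS : IsOpen S)
    (hSc : Convex ℝ S) {z0 : ℂ} (hz0 : z0 ∈ S) (hT : IsCompact T) (hST : S ⊆ T)
    {O : Set (ℂ × V × P)} (hO : IsOpen O) {G : ℂ × V × P → V} (hG : DifferentiableOn ℂ G O)
    {y0 : ℂ → V} {e0 : P} (hyc : ContinuousOn y0 T) (hyO : ∀ s ∈ T, (s, y0 s, e0) ∈ O)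
    (hyd : ∀ s ∈ S, HasDerivAt y0 (G (s, y0 s, e0)) s) :
    ∃ d > 0, ∃ C : ℝ, ∃ Y : ℂ × V × P → V,
      AnalyticOnNhd ℂ Y (S ×ˢ ball (y0 z0) d ×ˢ ball e0 d) ∧
      (∀ a ∈ ball (y0 z0) d, ∀ e ∈ ball e0 d, Y (z0, a, e) = a) ∧
      ∀ s ∈ S, ∀ a ∈ ball (y0 z0) d, ∀ e ∈ ball e0 d, (s, Y (s, a, e), e) ∈ O ∧
        HasDerivAt (fun s => Y (s, a, e)) (G (s, Y (s, a, e), e)) s ∧
        ‖Y (s, a, e) - y0 s‖ ≤ C * max ‖a - y0 z0‖ ‖e - e0‖ := by
  have : CompleteSpace V := FiniteDimensional.complete ℂ V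
  obtain ⟨d, hd, C, Y, hYd, hY0, hY⟩ := flow_near (W := V × P) hS hSc hz0 hT hST hO
    (G := fun p => (G p, 0)) (hG.prodMk (by fun_prop)) (y0 := fun s => (y0 s, e0))
    (hyc.prodMk continuousOn_const) hyO (fun s hs => (hyd s hs).prodMk (hasDerivAt_const s e0))
  have hball : ∀ a ∈ ball (y0 z0) d, ∀ e ∈ ball e0 d, (a, e) ∈ ball (y0 z0, e0) d := by
    intro a ha e he
    rw [← ball_prod_same]
    exact ⟨ha, he⟩
  -- the parameter component is constant
  have hconst : ∀ s ∈ S, ∀ a ∈ ball (y0 z0) d, ∀ e ∈ ball e0 d, (Y (s, (a, e))).2 = e := by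
    intro s hs a ha e he
    have h1 : ∀ t ∈ S, HasDerivAt (fun t => (Y (t, (a, e))).2) 0 t := fun t ht =>
      (hY t ht (a, e) (hball a ha e he)).2.1.snd
    have h2 : (Y (s, (a, e))).2 = (Y (z0, (a, e))).2 := by
      refine hS.is_const_of_deriv_eq_zero (f := fun t => (Y (t, (a, e))).2)
        hSc.isPreconnected (fun t ht => (h1 t ht).differentiableAt.differentiableWithinAt)
        (fun t ht => (h1 t ht).deriv) hs hz0
    rw [h2, hY0 (a, e) (hball a ha e he)]
  refine ⟨d, hd, C, fun q => (Y (q.1, (q.2.1, q.2.2))).1, ?_, ?_, ?_⟩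
  · refine analyticOnNhd_of_differentiableOn (hS.prod (isOpen_ball.prod isOpen_ball)) ?_
    refine DifferentiableOn.fst (hYd.comp (by fun_prop) fun q hq => ⟨hq.1, ?_⟩)
    exact hball _ hq.2.1 _ hq.2.2
  · intro a ha e he
    show (Y (z0, (a, e))).1 = a
    rw [hY0 (a, e) (hball a ha e he)]
  · intro s hs a ha e he
    obtain ⟨h1, h2, h3⟩ := hY s hs (a, e) (hball a ha e he)
    have h4 := hconst s hs a ha e he
    have h5 : Y (s, (a, e)) = ((Y (s, (a, e))).1, e) := Prod.ext rfl h4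
    refine ⟨?_, ?_, ?_⟩
    · show (s, (Y (s, (a, e))).1, e) ∈ O
      rw [← h5]; exact h1
    · have h6 := h2.fst
      rw [h5] at h6
      exact h6
    · refine le_trans ?_ h3
      show ‖(Y (s, (a, e))).1 - y0 s‖ ≤ _
      exact (le_max_left _ _).trans (le_of_eq (Prod.norm_def (Y (s, (a, e)) - (y0 s, e0))).symm)

end Vale.Agent.P097.H839.Ode
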