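import Vale.Agent.P097.H365.F5.Defs
import Vale.Agent.P097.H839.OdeC

/-!
# Row (β) of F5a: family of mirrors near a given one
-/

open Set Filter Metric Topology

namespace Vale.Agent.P097.H839

open Vale.Agent.P097.H365.F5 Vale.Agent.P097.Hol

theorem beta : Beta := by
  intro τ _ Φ i0 i1 c R V H z hR hV hcV hP ψ0 hψ0
  -- a larger disc
  obtain ⟨R', hRR', hR'V⟩ : ∃ R' > R, closedBall c R' ⊆ V := by
    obtain ⟨ε, hε, h1⟩ := (isCompact_closedBall c R).exists_cthickening_subset_open hV hcV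
    refine ⟨ε + R, by linarith, ?_⟩
    rwa [cthickening_closedBall hε.le hR.le] at h1
  set S : Set ℂ := ball c R' with hS
  have hψ0S : ψ0 ∈ S := ball_subset_ball hRR'.le hψ0
  set F : ℂ × (τ → ℂ) → (τ → ℂ) := fun p i => MvPolynomial.eval p.2 (Φ i) with hF
  have hFd : DifferentiableOn ℂ F univ := by
    rw [differentiableOn_univ, differentiable_pi]
    intro i p
    have h1 : AnalyticAt ℂ (fun p : ℂ × (τ → ℂ) => MvPolynomial.aeval p.2 (Φ i)) p := by
      refine AnalyticAt.aeval_mvPolynomial (f := fun p : ℂ × (τ → ℂ) => p.2) (fun j => ?_) (Φ i)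
      exact ((ContinuousLinearMap.proj (R := ℂ) (φ := fun _ : τ => ℂ) j).comp
        (ContinuousLinearMap.snd ℂ ℂ (τ → ℂ))).analyticAt p
    exact h1.differentiableAt
  obtain ⟨d, hd, C, Y, hYd, hY0, hY⟩ := Ode.flow_near (W := τ → ℂ) (S := S) (T := closedBall c R')
    isOpen_ball (convex_ball c R') hψ0S (isCompact_closedBall c R') ball_subset_closedBall
    isOpen_univ hFd (y0 := z)
    (fun s hs => (hP.der s (hR'V hs)).continuousAt.continuousWithinAt)
    (fun s _ => mem_univ _) (fun s hs => hP.der s (hR'V (ball_subset_closedBall hs)))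
  -- the time function
  set T : (τ → ℂ) → ℂ := fun y => ψ0 - Complex.I *
    Complex.log (y i0 * Complex.exp (-(Complex.I * ψ0))) with hT
  have hz0 : z ψ0 i0 = Complex.exp (Complex.I * ψ0) :=
    hP.hE ψ0 (hR'V (ball_subset_closedBall hψ0S))
  have hprod : z ψ0 i0 * Complex.exp (-(Complex.I * ψ0)) = 1 := by
    rw [hz0, ← Complex.exp_add]; simp
  have hT0 : T (z ψ0) = ψ0 := by
    simp only [hT]
    rw [hprod, Complex.log_one, mul_zero, sub_zero]
  have hTa : AnalyticAt ℂ T (z ψ0) := by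
    have h1 : AnalyticAt ℂ (fun y : τ → ℂ => y i0 * Complex.exp (-(Complex.I * ψ0))) (z ψ0) :=
      ((ContinuousLinearMap.proj (R := ℂ) (φ := fun _ : τ => ℂ) i0).analyticAt _).mul analyticAt_const
    refine analyticAt_const.sub (analyticAt_const.mul (h1.clog ?_))
    rw [hprod]
    exact Complex.one_mem_slitPlane
  have hne : ∀ᶠ y : τ → ℂ in 𝓝 (z ψ0), y i0 ≠ 0 := by
    have h1 : Continuous fun y : τ → ℂ => y i0 := continuous_apply i0
    exact h1.continuousAt.eventually_ne (by rw [hz0]; exact Complex.exp_ne_zero _)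
  have hTc : ∀ᶠ y in 𝓝 (z ψ0), T y ∈ ball c R ∧ ‖T y - ψ0‖ < R' - R := by
    have h1 := hTa.continuousAt
    refine (h1.eventually (by rw [hT0]; exact isOpen_ball.mem_nhds hψ0)).and ?_
    have h2 := Metric.continuousAt_iff'.1 h1 (R' - R) (by linarith)
    filter_upwards [h2] with y hy
    rwa [hT0, dist_eq_norm] at hy
  obtain ⟨δ, hδ, hball⟩ := Metric.eventually_nhds_iff_ball.1
    ((hTa.eventually_analyticAt.and (hne.and hTc)).and (ball_mem_nhds (z ψ0) hd))
  have hTexp : ∀ y ∈ ball (z ψ0) δ, Complex.exp (Complex.I * T y) = y i0 := by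
    intro y hy
    have hyn := (hball y hy).1.2.1
    simp only [hT]
    rw [show Complex.I * (ψ0 - Complex.I * Complex.log (y i0 * Complex.exp (-(Complex.I * ψ0)))) =
      Complex.I * ψ0 + Complex.log (y i0 * Complex.exp (-(Complex.I * ψ0))) by
        linear_combination (-Complex.log (y i0 * Complex.exp (-(Complex.I * ψ0)))) *
          Complex.I_mul_I, Complex.exp_add,
      Complex.exp_log (mul_ne_zero hyn (Complex.exp_ne_zero _))]
    rw [mul_comm (y i0), ← mul_assoc, ← Complex.exp_add]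
    simp
  -- times stay in the larger disc
  have hmem : ∀ ψ ∈ ball c R, ∀ y ∈ ball (z ψ0) δ, ψ - T y + ψ0 ∈ S := by
    intro ψ hψ y hy
    have h1 := (hball y hy).1.2.2.2
    rw [hS, mem_ball, dist_eq_norm] at *
    calc ‖ψ - T y + ψ0 - c‖ = ‖(ψ - c) - (T y - ψ0)‖ := by congr 1; ring
      _ ≤ ‖ψ - c‖ + ‖T y - ψ0‖ := norm_sub_le _ _
      _ < R' := by linarith
  have hYa : AnalyticOnNhd ℂ Y (S ×ˢ ball (z ψ0) d) :=
    analyticOnNhd_of_differentiableOn (isOpen_ball.prod isOpen_ball) hYd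
  have hder : ∀ ψ ∈ ball c R, ∀ y ∈ ball (z ψ0) δ,
      HasDerivAt (fun ψ => Y (ψ - T y + ψ0, y))
        (fun i => MvPolynomial.eval (Y (ψ - T y + ψ0, y)) (Φ i)) ψ := by
    intro ψ hψ y hy
    have h1 := (hY (ψ - T y + ψ0) (hmem ψ hψ y hy) y (hball y hy).2).2.1
    have h2 : HasDerivAt (fun ψ : ℂ => ψ - T y + ψ0) 1 ψ :=
      ((hasDerivAt_id ψ).sub_const _).add_const _
    have h3 := h1.scomp ψ h2
    rw [one_smul] at h3
    exact h3
  refine ⟨δ, hδ, T, fun p => Y (p.1 - T p.2 + ψ0, p.2), fun y hy => (hball y hy).1.1, hT0,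
    fun y hy => ⟨(hball y hy).1.2.2.1, hTexp y hy⟩, ?_, ?_, ?_, ?_⟩
  · rintro ⟨ψ, y⟩ ⟨hψ, hy⟩
    have h1 : AnalyticAt ℂ (fun p : ℂ × (τ → ℂ) => (p.1 - T p.2 + ψ0, p.2)) (ψ, y) := by
      refine AnalyticAt.prod ?_ analyticAt_snd
      refine (analyticAt_fst.sub ?_).add analyticAt_const
      exact AnalyticAt.comp (g := T) (f := fun p : ℂ × (τ → ℂ) => p.2) (hball y hy).1.1 analyticAt_snd
    exact AnalyticAt.comp (g := Y) (f := fun p : ℂ × (τ → ℂ) => (p.1 - T p.2 + ψ0, p.2))
      (hYa _ ⟨hmem ψ hψ y hy, (hball y hy).2⟩) h1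
  · intro y hy
    show Y (T y - T y + ψ0, y) = y
    rw [sub_self, zero_add]
    exact hY0 y (hball y hy).2
  · intro y hy
    refine ⟨hP.hΦ, fun ψ hψ => hder ψ hψ y hy, fun ψ hψ => ?_, fun ψ _ => rfl⟩
    -- the exponential
    have h1 : ∀ s ∈ ball c R, HasDerivAt (fun s => Y (s - T y + ψ0, y) i0 *
        Complex.exp (-(Complex.I * s))) 0 s := by
      intro s hs
      have h2 := (hasDerivAt_pi.1 (hder s hs y hy)) i0
      have h3 : HasDerivAt (fun s : ℂ => Complex.exp (-(Complex.I * s)))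
          (Complex.exp (-(Complex.I * s)) * (-(Complex.I * 1))) s :=
        (((hasDerivAt_id s).const_mul Complex.I).neg).cexp
      refine (h2.mul h3).congr_deriv ?_
      rw [hP.hΦ]
      simp only [map_mul, MvPolynomial.eval_C, MvPolynomial.eval_X]
      ring
    have hTb := (hball y hy).1.2.2.1
    have h4 := isOpen_ball.is_const_of_deriv_eq_zero
      (f := fun s => Y (s - T y + ψ0, y) i0 * Complex.exp (-(Complex.I * s)))
      (convex_ball c R).isPreconnected
      (fun s hs => (h1 s hs).differentiableAt.differentiableWithinAt)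
      (fun s hs => (h1 s hs).deriv) hψ hTb
    simp only [sub_self, zero_add] at h4
    rw [hY0 y (hball y hy).2, ← hTexp y hy, ← Complex.exp_add] at h4
    simp only [add_neg_cancel, Complex.exp_zero] at h4
    show Y (ψ - T y + ψ0, y) i0 = _
    calc Y (ψ - T y + ψ0, y) i0 = (Y (ψ - T y + ψ0, y) i0 * Complex.exp (-(Complex.I * ψ))) *
          Complex.exp (Complex.I * ψ) := by
            rw [mul_assoc, ← Complex.exp_add]; simp
      _ = Complex.exp (Complex.I * ψ) := by rw [h4, one_mul]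
  · intro ψ hψ
    show Y (ψ - T (z ψ0) + ψ0, z ψ0) = z ψ
    rw [hT0, sub_add_cancel]
    have h1 := (hY ψ (ball_subset_ball hRR'.le hψ) (z ψ0) (mem_ball_self hd)).2.2
    rw [sub_self, norm_zero, mul_zero] at h1
    exact sub_eq_zero.1 (norm_le_zero_iff.1 h1)

end Vale.Agent.P097.H839
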